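import Vale.Agent.P267.H53.ASDefs

/-!
# P267, package UNI-AS: compactly supported Alexander-Spanier cohomology of `ℝⁿ`

`IsBase Y n ρ` : every closed cochain with bounded support on `Y` of `q + 1` points is
`c ρ + d g` on small lists, with `g` of bounded support, and `c = 0` if `q ≠ n`.

* `isBase_unit` : the point.
* `IsBase.prod` : `IsBase Y n ρ → IsBase (Y × ℝ) (n + 1) (step ∪ ρ)`.
-/

namespace Vale.Agent.P267.AS

open Bornology

variable {X Y : Type*}

/-- `ρ` is a generator of the compactly supported cohomology of `Y`, which is concentrated in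
degree `n` -/
def IsBase (Y : Type*) [PseudoMetricSpace Y] (n : ℕ) (ρ : List Y → ℤ) : Prop :=
  Bd (n + 1) ρ ∧ LZ (n + 2) (d ρ) ∧
  ∀ (q : ℕ) (f : List Y → ℤ), Bd (q + 1) f → LZ (q + 2) (d f) →
    ∃ (c : ℤ) (g : List Y → ℤ), Bd q g ∧ (q ≠ n → c = 0) ∧
      LZ (q + 1) fun l => f l - c * ρ l - d g l

/-! ### The point -/

theorem d_one_replicate (u : List Unit → ℤ) (n : ℕ) :
    d u (List.replicate (n + 1) ()) = if Even n then u (List.replicate n ()) else 0 := by
  have : ∀ (n : ℕ) (u : List Unit → ℤ), (∀ l m : List Unit, l.length = m.length → u l = u m) →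
      d u (List.replicate (n + 1) ()) = if Even n then u (List.replicate n ()) else 0 := by
    intro n
    induction n with
    | zero => intro u _; simp [d_cons]
    | succ n ih =>
      intro u hu
      rw [List.replicate_succ, d_cons, ih (fun m => u (() :: m)) fun l m h => hu _ _ (by simp [h])]
      by_cases hn : Even n
      · rw [if_pos hn, if_neg (by simpa [Nat.even_add_one] using hn)]
        simp [List.replicate_succ]
      · rw [if_neg hn, if_pos (by simpa [Nat.even_add_one] using hn)]
        simp
  refine this n u fun l m h => ?_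
  have hl : ∀ l : List Unit, l = List.replicate l.length () := fun l => by
    rw [List.eq_replicate_iff]
    exact ⟨rfl, fun _ _ => rfl⟩
  rw [hl l, hl m, h]

theorem list_unit (l : List Unit) : l = List.replicate l.length () := by
  rw [List.eq_replicate_iff]
  exact ⟨rfl, fun _ _ => rfl⟩

theorem isBase_unit : IsBase Unit 0 fun _ => 1 := by
  refine ⟨⟨Set.univ, (Set.toFinite _).isCompact.isBounded, 1, one_pos, fun l hl _ _ => ?_⟩,
    LZ.of_forall fun l hl => ?_, fun q f _ hf => ?_⟩
  · exact ⟨(), by rw [list_unit l, hl]; simp, trivial⟩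
  · rw [list_unit l, hl, d_one_replicate]
    simp
  · obtain ⟨ε, hε, h⟩ := hf
    have h1 : d f (List.replicate (q + 2) ()) = 0 := h _ (by simp) fun x _ y _ => by
      simpa using hε
    rw [d_one_replicate] at h1
    rcases Nat.eq_zero_or_pos q with rfl | hq
    · refine ⟨f [()], fun _ => 0, ⟨Set.univ, (Set.toFinite _).isCompact.isBounded, 1, one_pos,
        fun l hl _ h0 => (h0 rfl).elim⟩, fun h => (h rfl).elim, LZ.of_forall fun l hl => ?_⟩
      rw [list_unit l, hl]
      simp
    · by_cases he : Even q
      · refine ⟨0, fun _ => f (List.replicate (q + 1) ()), ⟨Set.univ, (Set.toFinite _).isCompact.isBounded, 1,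
          one_pos, fun l hl _ _ => ⟨(), ?_, trivial⟩⟩, fun _ => rfl, LZ.of_forall fun l hl => ?_⟩
        · rw [list_unit l, hl]
          simp [hq.ne']
        · rw [list_unit l, hl, d_one_replicate, if_pos he]
          ring
      · refine ⟨0, fun _ => 0, ⟨Set.univ, (Set.toFinite _).isCompact.isBounded, 1, one_pos,
          fun l hl _ h0 => (h0 rfl).elim⟩, fun _ => rfl, LZ.of_forall fun l hl => ?_⟩
        rw [if_pos (by simpa [Nat.even_add_one] using he)] at h1
        rw [list_unit l, hl, h1]
        simp

/-! ### Indicator cochains -/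

open Classical in
/-- the 0-cochain (of one point) given by the indicator function of `S` -/
noncomputable def ind (S : Set X) : List X → ℤ
  | [] => 0
  | x :: _ => if x ∈ S then 1 else 0

@[simp] theorem ind_nil (S : Set X) : ind S [] = 0 := rfl

theorem ind_cons_of_mem {S : Set X} {x : X} (h : x ∈ S) (l : List X) : ind S (x :: l) = 1 := by
  classical
  simp [ind, h]

theorem ind_cons_of_notMem {S : Set X} {x : X} (h : x ∉ S) (l : List X) :
    ind S (x :: l) = 0 := by
  classical
  simp [ind, h]

theorem d_ind (S : Set X) (x y : X) : d (ind S) [x, y] = ind S [y] - ind S [x] := by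
  simp [d_cons]

theorem cup_one_d_ind (S : Set X) (g : List X → ℤ) (x y : X) (l : List X) :
    cup 1 (d (ind S)) g (x :: y :: l) = (ind S [y] - ind S [x]) * g (y :: l) := by
  rw [← d_ind]
  rfl

theorem cup_one_nil {A : Type*} [CommRing A] (f g : List X → A) (x : X) : cup 1 f g [x] = 0 := rfl

theorem cup_dd {A : Type*} [CommRing A] (k : ℕ) (f g : List X → A) (l : List X) :
    cup k (d (d f)) g l = 0 := by
  have : d (d f) = fun _ => 0 := funext (d_d f)
  rw [this, cup_zero_left]

/-- `s ∪ dv = - d (s ∪ v)` for `s = dχ` -/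
theorem cup_one_d {k : ℕ} (f v : List X → ℤ) (hv : k = 0 → v [] = 0) (l : List X)
    (hl : l.length = k + 2) : cup 1 (d f) (d v) l = - d (cup 1 (d f) v) l := by
  rcases Nat.eq_zero_or_pos k with rfl | hk
  · match l, hl with
    | [x, y], _ =>
      have e : cup 1 (d f) (d v) [x, y] = d f [x, y] * (v [] - 0) := rfl
      have e2 : d (cup 1 (d f) v) [x, y] = 0 := by
        rw [d_cons, d_cons, cup_one_nil]
        simp [cup_one_nil]
      rw [e, hv rfl, e2]
      simp
  · have := d_cup 1 (d f) v l (by omega) (by omega)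
    rw [cup_dd] at this
    rw [this]
    ring

section Prod

variable [PseudoMetricSpace Y]

/-- translation of the last coordinate -/
def tr (s : ℝ) (x : Y × ℝ) : Y × ℝ := (x.1, x.2 + s)

omit [PseudoMetricSpace Y] in
theorem tr_zero : tr (Y := Y) 0 = id := by
  funext x
  simp [tr]

theorem dist_tr_tr (s s' : ℝ) (x x' : Y × ℝ) : dist (tr s x) (tr s' x') ≤ dist x x' + |s - s'| := by
  rw [Prod.dist_eq, Prod.dist_eq]
  refine max_le ?_ ?_
  · exact (le_max_left (dist x.1 x'.1) (dist x.2 x'.2)).trans (le_add_of_nonneg_right (abs_nonneg _))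
  · refine le_trans ?_ (add_le_add (le_max_right _ _) le_rfl)
    simp only [tr, Real.dist_eq]
    rw [show x.2 + s - (x'.2 + s') = (x.2 - x'.2) + (s - s') by ring]
    exact abs_add_le _ _

theorem sm_of_mem {Z : Type*} [PseudoMetricSpace Z] {a b : X → Z} {l : List X} {m : List Z} {ε : ℝ}
    (hm : ∀ y ∈ m, ∃ x ∈ l, y = a x ∨ y = b x) (haa : ∀ x ∈ l, ∀ y ∈ l, dist (a x) (a y) < ε)
    (hbb : ∀ x ∈ l, ∀ y ∈ l, dist (b x) (b y) < ε) (hab : ∀ x ∈ l, ∀ y ∈ l, dist (a x) (b y) < ε) :
    Sm ε m := by
  intro y hy z hz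
  obtain ⟨x, hx, h⟩ := hm y hy
  obtain ⟨x', hx', h'⟩ := hm z hz
  rcases h with rfl | rfl <;> rcases h' with rfl | rfl
  · exact haa x hx x' hx'
  · exact hab x hx x' hx'
  · rw [dist_comm]; exact hab x' hx' x hx
  · exact hbb x hx x' hx'

/-- the sum of the first `N` prisms -/
def sl (N : ℕ) (η : ℝ) (f : List (Y × ℝ) → ℤ) (l : List (Y × ℝ)) : ℤ :=
  ∑ k ∈ Finset.range N, prism (tr (k * η)) (tr ((k + 1 : ℕ) * η)) f l

omit [PseudoMetricSpace Y] in
theorem d_sl (N : ℕ) (η : ℝ) (f : List (Y × ℝ) → ℤ) (l : List (Y × ℝ)) :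
    d (sl N η f) l + sl N η (d f) l = f (l.map (tr (N * η))) - f l := by
  have e : d (sl N η f) l = ∑ k ∈ Finset.range N,
      d (prism (tr (k * η)) (tr ((k + 1 : ℕ) * η)) f) l := d_sum_apply _ _ _
  rw [e, sl, ← Finset.sum_add_distrib]
  have : ∀ k ∈ Finset.range N, d (prism (tr (k * η)) (tr ((k + 1 : ℕ) * η)) f) l +
      prism (tr (k * η)) (tr ((k + 1 : ℕ) * η)) (d f) l =
      (fun k : ℕ => f (l.map (tr (k * η)))) (k + 1) - (fun k : ℕ => f (l.map (tr (k * η)))) k :=
    fun k _ => d_prism _ _ _ _
  rw [Finset.sum_congr rfl this, Finset.sum_range_sub (fun k : ℕ => f (l.map (tr (k * η))))]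
  simp [tr_zero]

/-- supports of cup products with a wall -/
theorem bd_wall {k : ℕ} {K : Set Y} (hK : IsBounded K) {T : ℝ} {v : List (Y × ℝ) → ℤ}
    (hv : ∃ ε > 0, ∀ m : List (Y × ℝ), m.length = k → Sm ε m → (∀ x ∈ m, |x.2 - T| < ε) →
      v m ≠ 0 → ∃ z ∈ m, z.1 ∈ K) :
    Bd (k + 1) (cup 1 (d (ind {x : Y × ℝ | T < x.2})) v) := by
  obtain ⟨ε, hε, hv⟩ := hv
  refine ⟨K ×ˢ Metric.closedBall T 1, hK.prod Metric.isBounded_closedBall, min (ε / 2) (1 / 2),
    by positivity, fun l hl hs h0 => ?_⟩
  match l with
  | [] => exact (h0 rfl).elim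
  | [x] => exact (h0 rfl).elim
  | x :: y :: l =>
    rw [cup_one_d_ind] at h0
    have hxy : dist x y < min (ε / 2) (1 / 2) := hs x (by simp) y (by simp)
    have hy : |y.2 - T| < min (ε / 2) (1 / 2) := by
      have h2 : |x.2 - y.2| < min (ε / 2) (1 / 2) := lt_of_le_of_lt (by
        rw [Prod.dist_eq, ← Real.dist_eq]; exact le_max_right _ _) hxy
      have h1 : ind {x : Y × ℝ | T < x.2} [y] ≠ ind {x : Y × ℝ | T < x.2} [x] := fun h =>
        h0 (by rw [h]; ring)
      by_cases hx : T < x.2 <;> by_cases hy : T < y.2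
      · exact (h1 (by rw [ind_cons_of_mem (S := {x : Y × ℝ | T < x.2}) hx,
          ind_cons_of_mem (S := {x : Y × ℝ | T < x.2}) hy])).elim
      · rw [abs_lt] at h2 ⊢
        push Not at hy
        constructor <;> linarith
      · rw [abs_lt] at h2 ⊢
        push Not at hx
        constructor <;> linarith
      · exact (h1 (by rw [ind_cons_of_notMem (S := {x : Y × ℝ | T < x.2}) hx,
          ind_cons_of_notMem (S := {x : Y × ℝ | T < x.2}) hy])).elim
    have hz : ∀ z ∈ y :: l, |z.2 - T| < min (ε / 2) (1 / 2) + min (ε / 2) (1 / 2) := fun z hz => by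
      have h3 : dist z y < min (ε / 2) (1 / 2) := hs z (List.mem_cons_of_mem _ hz) y (by simp)
      have h2 : |z.2 - y.2| < min (ε / 2) (1 / 2) := lt_of_le_of_lt (by
        rw [Prod.dist_eq, ← Real.dist_eq]; exact le_max_right _ _) h3
      calc |z.2 - T| = |(z.2 - y.2) + (y.2 - T)| := by ring_nf
        _ ≤ |z.2 - y.2| + |y.2 - T| := abs_add_le _ _
        _ < _ := add_lt_add h2 hy
    have hm1 : min (ε / 2) (1 / 2) ≤ ε / 2 := min_le_left _ _
    have hm2 : min (ε / 2) (1 / 2) ≤ 1 / 2 := min_le_right _ _
    obtain ⟨z, hz1, hz2⟩ := hv (y :: l) (by simpa using hl)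
      ((hs.sublist (List.sublist_cons_self _ _)).mono (by linarith))
      (fun z h => (hz z h).trans_le (by linarith)) (fun h => h0 (by rw [h, mul_zero]))
    refine ⟨z, List.mem_cons_of_mem _ hz1, hz2, ?_⟩
    rw [Metric.mem_closedBall, Real.dist_eq]
    exact (hz z hz1).le.trans (by linarith)

/-- the standard generator on `Y × ℝ` -/
noncomputable def gen (ρ : List Y → ℤ) : List (Y × ℝ) → ℤ :=
  cup 1 (d (ind {x : Y × ℝ | 0 < x.2})) fun l => ρ (l.map Prod.fst)

omit [PseudoMetricSpace Y] in
theorem bd_nil {Z : Type*} [PseudoMetricSpace Z] {f : List Z → ℤ} (h : Bd 0 f) : f [] = 0 := by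
  obtain ⟨K, _, ε, hε, h⟩ := h
  by_contra h0
  obtain ⟨x, hx, _⟩ := h [] rfl (fun x hx => by simp at hx) h0
  simp at hx

theorem Bd.const_mul {Z : Type*} [PseudoMetricSpace Z] {n : ℕ} {f : List Z → ℤ} (h : Bd n f)
    (c : ℤ) : Bd n fun l => c * f l := by
  obtain ⟨K, hK, ε, hε, h⟩ := h
  exact ⟨K, hK, ε, hε, fun l hl hs h0 => h l hl hs fun h1 => h0 (by simp only [h1, mul_zero])⟩

theorem Bd.zero {Z : Type*} [PseudoMetricSpace Z] {n : ℕ} : Bd n fun _ : List Z => (0 : ℤ) :=
  ⟨∅, Bornology.isBounded_empty, 1, one_pos, fun _ _ _ h => (h rfl).elim⟩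

theorem Sm.map_fst {ε : ℝ} {l : List (Y × ℝ)} (h : Sm ε l) : Sm ε (l.map Prod.fst) := by
  intro x' hx' y' hy'
  obtain ⟨x, hx, rfl⟩ := List.mem_map.1 hx'
  obtain ⟨y, hy, rfl⟩ := List.mem_map.1 hy'
  exact lt_of_le_of_lt (by rw [Prod.dist_eq]; exact le_max_left _ _) (h x hx y hy)

theorem gen_closed {n : ℕ} {ρ : List Y → ℤ} (h : LZ (n + 2) (d ρ)) : LZ (n + 3) (d (gen ρ)) := by
  obtain ⟨ε, hε, h⟩ := h
  refine ⟨ε, hε, fun l hl hs => ?_⟩
  have e := d_cup 1 (d (ind {x : Y × ℝ | 0 < x.2})) (fun l => ρ (l.map Prod.fst)) l (by omega)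
    (by omega)
  rw [gen, e, cup_dd]
  match l, hl with
  | x :: y :: l, hl =>
    rw [cup_one_d_ind, d_map, h _ (by simpa using hl)
      ((hs.sublist (List.sublist_cons_self _ _)).map_fst)]
    ring

theorem gen_bd {n : ℕ} {ρ : List Y → ℤ} (h : Bd (n + 1) ρ) : Bd (n + 2) (gen ρ) := by
  obtain ⟨K, hK, ε, hε, h⟩ := h
  refine bd_wall hK ⟨ε, hε, fun m hm hs _ h0 => ?_⟩
  obtain ⟨y, hy, hyK⟩ := h (m.map Prod.fst) (by simpa using hm) hs.map_fst h0
  obtain ⟨z, hz, rfl⟩ := List.mem_map.1 hy
  exact ⟨z, hz, hyK⟩

/-- **The inductive step**: `H_c^{q+1}(Y × ℝ) = H_c^q(Y)`. -/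
theorem IsBase.prod {n : ℕ} {ρ : List Y → ℤ} (hb : IsBase Y n ρ) :
    IsBase (Y × ℝ) (n + 1) (gen ρ) := by
  refine ⟨gen_bd hb.1, gen_closed hb.2.1, fun q f hfs hfc => ?_⟩
  obtain ⟨K, hK, ε₁, hε₁, hsupp⟩ := hfs
  obtain ⟨ε₂, hε₂, hcl⟩ := hfc
  obtain ⟨T, hT0, hT⟩ : ∃ T : ℝ, 0 < T ∧ ∀ x ∈ K, |x.2| ≤ T := by
    obtain ⟨R, hR⟩ := hK.image_snd.exists_norm_le
    refine ⟨max R 1, by positivity, fun x hx => ?_⟩
    have := hR x.2 ⟨x, hx, rfl⟩
    exact this.trans (le_max_left _ _)
  obtain ⟨ε, hε0, hε1, hεε₁, hεε₂⟩ : ∃ ε : ℝ, 0 < ε ∧ ε ≤ 1 ∧ ε ≤ ε₁ ∧ ε ≤ ε₂ :=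
    ⟨min 1 (min ε₁ ε₂), by positivity, min_le_left _ _,
      (min_le_right _ _).trans (min_le_left _ _), (min_le_right _ _).trans (min_le_right _ _)⟩
  replace hsupp : ∀ l : List (Y × ℝ), l.length = q + 1 → Sm ε l → f l ≠ 0 → ∃ x ∈ l, x ∈ K :=
    fun l hl hs => hsupp l hl (hs.mono hεε₁)
  replace hcl : ∀ l : List (Y × ℝ), l.length = q + 2 → Sm ε l → d f l = 0 :=
    fun l hl hs => hcl l hl (hs.mono hεε₂)
  clear hε₁ hε₂ hεε₁ hεε₂ ε₁ ε₂
  -- shifts
  set η : ℝ := ε / 4 with hη
  have hη0 : 0 < η := by positivity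
  have hstep : ∀ (k : ℕ) (l : List (Y × ℝ)) (m : List (Y × ℝ)), Sm (ε / 2) l →
      (∀ y ∈ m, ∃ x ∈ l, y = tr (k * η) x ∨ y = tr ((k + 1 : ℕ) * η) x) → Sm ε m := by
    intro k l m hs hm
    refine sm_of_mem hm (fun x hx y hy => ?_) (fun x hx y hy => ?_) (fun x hx y hy => ?_)
    · refine (dist_tr_tr _ _ _ _).trans_lt ?_
      rw [sub_self, abs_zero]
      linarith [hs x hx y hy]
    · refine (dist_tr_tr _ _ _ _).trans_lt ?_
      rw [sub_self, abs_zero]
      linarith [hs x hx y hy]
    · refine (dist_tr_tr _ _ _ _).trans_lt ?_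
      have : |(k : ℝ) * η - ((k + 1 : ℕ) : ℝ) * η| = η := by
        rw [show (k : ℝ) * η - ((k + 1 : ℕ) : ℝ) * η = -η by push_cast; ring, abs_neg,
          abs_of_pos hη0]
      rw [this]
      linarith [hs x hx y hy]
  obtain ⟨N, hN⟩ : ∃ N : ℕ, 2 * T + 3 < N * η := by
    obtain ⟨N, hN⟩ := exists_nat_gt ((2 * T + 3) / η)
    exact ⟨N, by rwa [div_lt_iff₀ hη0] at hN⟩
  rcases Nat.eq_zero_or_pos q with rfl | hq
  · -- degree 0
    refine ⟨0, fun _ => 0, Bd.zero, fun _ => rfl, ε / 2, by positivity, fun l hl hs => ?_⟩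
    have key : ∀ x : Y × ℝ, f [x] = 0 := by
      intro x
      have h1 : ∀ k : ℕ, f [tr (k * η) x] = f [x] := by
        intro k
        induction k with
        | zero => simp [tr_zero]
        | succ k ih =>
          have h2 := hcl [tr (k * η) x, tr ((k + 1 : ℕ) * η) x] rfl (hstep k [x] _
            (fun a ha b hb => by
              rw [List.mem_singleton] at ha hb
              rw [ha, hb, dist_self]
              positivity) (fun y hy => by
              simp only [List.mem_cons, List.not_mem_nil, or_false] at hy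
              exact ⟨x, by simp, hy⟩))
          simp only [d_cons, d_nil, sub_zero] at h2
          linarith
      obtain ⟨M, hM⟩ : ∃ M : ℕ, T - x.2 < M * η := by
        obtain ⟨N, hN⟩ := exists_nat_gt ((T - x.2) / η)
        exact ⟨N, by rwa [div_lt_iff₀ hη0] at hN⟩
      rw [← h1 M]
      by_contra h0
      obtain ⟨y, hy, hyK⟩ := hsupp _ rfl (fun a ha b hb => by
              rw [List.mem_singleton] at ha hb
              rw [ha, hb, dist_self]
              positivity) h0
      rw [List.mem_singleton] at hy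
      have := hT y hyK
      rw [hy, tr, abs_le] at this
      simp only at this
      linarith [this.2]
    match l, hl with
    | [x], _ => simp [key x, d_cons]
  · -- positive degree
    obtain ⟨p, rfl⟩ : ∃ p, q = p + 1 := ⟨q - 1, by omega⟩
    set G := sl N η f with hG
    -- (i)
    have hdG : ∀ l : List (Y × ℝ), l.length = p + 2 → Sm (ε / 2) l →
        (∀ x ∈ l, -T - 2 ≤ x.2) → d G l = - f l := by
      intro l hl hs hl2
      have h1 : sl N η (d f) l = 0 := Finset.sum_eq_zero fun k _ => prism_eq_zero
        fun m hm hm2 _ => hcl m (by omega) (hstep k l m hs hm2)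
      have h2 : f (l.map (tr (N * η))) = 0 := by
        by_contra h0
        obtain ⟨y, hy, hyK⟩ := hsupp _ (by simpa using hl) (by
          intro a' ha' b' hb'
          obtain ⟨a, ha, rfl⟩ := List.mem_map.1 ha'
          obtain ⟨b, hb, rfl⟩ := List.mem_map.1 hb'
          refine (dist_tr_tr _ _ _ _).trans_lt ?_
          rw [sub_self, abs_zero]
          linarith [hs a ha b hb]) h0
        obtain ⟨x, hx, rfl⟩ := List.mem_map.1 hy
        have h3 := hT _ hyK
        rw [tr, abs_le] at h3
        have h4 := hl2 x hx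
        simp only at h3
        linarith [h3.2]
      have h3 := d_sl N η f l
      rw [h1, h2] at h3
      linarith
    -- support of G
    have hGs : ∀ l : List (Y × ℝ), l.length = p + 1 → Sm (ε / 2) l → G l ≠ 0 →
        ∃ x ∈ l, x.1 ∈ Prod.fst '' K ∧ -T - N * η ≤ x.2 ∧ x.2 ≤ T := by
      intro l hl hs h0
      obtain ⟨k, hk, hk0⟩ := Finset.exists_ne_zero_of_sum_ne_zero h0
      by_contra hcon
      apply hk0
      refine prism_eq_zero fun m hm hm2 _ => ?_
      by_contra hm0
      obtain ⟨y, hy, hyK⟩ := hsupp m (by omega) (hstep k l m hs hm2) hm0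
      obtain ⟨x, hx, h⟩ := hm2 y hy
      apply hcon
      have hkN : (k : ℝ) + 1 ≤ N := by exact_mod_cast Finset.mem_range.1 hk
      have hkη : ((k : ℝ) + 1) * η ≤ N * η := mul_le_mul_of_nonneg_right hkN hη0.le
      have hkη' : 0 ≤ (k : ℝ) * η := by positivity
      have h5 := hT y hyK
      rw [abs_le] at h5
      refine ⟨x, hx, ⟨y, hyK, ?_⟩, ?_⟩
      · rcases h with rfl | rfl <;> rfl
      · rcases h with rfl | rfl
        · simp only [tr] at h5
          constructor <;> linarith [h5.1, h5.2]
        · simp only [tr] at h5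
          push_cast at h5
          constructor <;> linarith [h5.1, h5.2]
    have hK1 : IsBounded (Prod.fst '' K) := hK.image_fst
    -- the wall at -T-1
    set T' : ℝ := -T - 1 with hT'
    set S : Set (Y × ℝ) := {x | T' < x.2} with hS
    have hclose : ∀ {l : List (Y × ℝ)} {r : ℝ}, Sm r l → ∀ x ∈ l, ∀ y ∈ l, |x.2 - y.2| < r :=
      fun hs x hx y hy => lt_of_le_of_lt (by
        rw [Prod.dist_eq, ← Real.dist_eq]; exact le_max_right _ _) (hs x hx y hy)
    -- (ii)
    have h2 : ∀ l : List (Y × ℝ), l.length = p + 2 → Sm (ε / 2) l →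
        f l = cup 1 (d (ind S)) G l - d (cup 0 (ind S) G) l := by
      intro l hl hs
      have e := d_cup 0 (ind S) G l (by omega) (by omega)
      rw [e]
      simp only [zero_add, pow_zero, one_mul]
      match l, hl with
      | x :: l, hl =>
        rw [cup_zero_cons]
        by_cases hx : x ∈ S
        · rw [ind_cons_of_mem hx, hdG _ hl hs]
          · ring
          · intro y hy
            have := hclose hs x (by simp) y hy
            rw [abs_lt] at this
            have hx' : T' < x.2 := hx
            linarith [this.2]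
        · rw [ind_cons_of_notMem hx]
          have : f (x :: l) = 0 := by
            by_contra h0
            obtain ⟨y, hy, hyK⟩ := hsupp _ hl (hs.mono (by linarith)) h0
            have h6 := hclose hs x (by simp) y hy
            have h5 := hT y hyK
            rw [abs_lt] at h6
            rw [abs_le] at h5
            have hx' : ¬ T' < x.2 := hx
            push Not at hx'
            linarith [h6.1, h5.1]
          rw [this]
          ring
    -- (iii)
    set b : Y × ℝ → Y × ℝ := fun x => (x.1, T') with hb'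
    set PG := prism id b G with hPG
    set u : List Y → ℤ := fun m => G (m.map fun y => (y, T')) with hu
    have hnear : ∀ (l m : List (Y × ℝ)), Sm (ε / 4) l → (∀ x ∈ l, |x.2 - T'| < ε / 4) →
        (∀ y ∈ m, ∃ x ∈ l, y = id x ∨ y = b x) → Sm (ε / 2) m ∧ ∀ y ∈ m, |y.2 - T'| < ε / 4 := by
      intro l m hs hw hm
      constructor
      · refine sm_of_mem hm (fun x hx y hy => ?_) (fun x hx y hy => ?_) (fun x hx y hy => ?_)
        · exact (hs x hx y hy).trans (by linarith)
        · rw [Prod.dist_eq]
          refine max_lt ?_ ?_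
          · exact (lt_of_le_of_lt (by rw [Prod.dist_eq]; exact le_max_left _ _)
              (hs x hx y hy)).trans (by linarith)
          · simp only [hb', dist_self]
            positivity
        · rw [Prod.dist_eq]
          refine max_lt ?_ ?_
          · exact (lt_of_le_of_lt (by rw [Prod.dist_eq]; exact le_max_left _ _)
              (hs x hx y hy)).trans (by linarith)
          · simp only [hb', id, Real.dist_eq]
            exact (hw x hx).trans (by linarith)
      · intro y hy
        obtain ⟨x, hx, h⟩ := hm y hy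
        rcases h with h | h
        · rw [h]
          exact hw x hx
        · rw [h]
          simp only [hb', sub_self, abs_zero]
          positivity
    have h3 : ∀ m : List (Y × ℝ), m.length = p + 1 → Sm (ε / 4) m →
        (∀ x ∈ m, |x.2 - T'| < ε / 4) → G m = u (m.map Prod.fst) - d PG m := by
      intro m hm hs hw
      have e := d_prism id b G m
      have e0 : prism id b (d G) m = 0 := prism_eq_zero fun m' hm' hm2 _ => by
        obtain ⟨h6, h7⟩ := hnear m m' hs hw hm2
        have h10 : ∀ z ∈ m', -T - 2 ≤ z.2 := fun z hz => by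
          have := h7 z hz
          rw [abs_lt] at this
          linarith [this.1]
        rw [hdG m' (by omega) h6 h10]
        by_contra h0
        obtain ⟨y, hy, hyK⟩ := hsupp _ (by omega) (h6.mono (by linarith)) fun h => h0 (by
          rw [h, neg_zero])
        have h5 := hT y hyK
        have h8 := h7 y hy
        rw [abs_le] at h5
        rw [abs_lt] at h8
        linarith [h5.1, h8.2]
      have e1 : u (m.map Prod.fst) = G (m.map b) := by
        simp only [hu, List.map_map]
        rfl
      rw [e0, List.map_id, add_zero] at e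
      rw [e1]
      linarith [e]
    -- (v)
    have hus : Bd (p + 1) u := by
      refine ⟨Prod.fst '' K, hK1, ε / 2, by positivity, fun m hm hs h0 => ?_⟩
      obtain ⟨x, hx, hxK, _⟩ := hGs (m.map fun y => (y, T')) (by simpa using hm) (by
        intro a' ha' c' hc'
        obtain ⟨a, ha, rfl⟩ := List.mem_map.1 ha'
        obtain ⟨c, hc, rfl⟩ := List.mem_map.1 hc'
        rw [Prod.dist_eq]
        refine max_lt (hs a ha c hc) ?_
        simp only [dist_self]
        positivity) h0
      obtain ⟨y, hy, rfl⟩ := List.mem_map.1 hx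
      exact ⟨y, hy, hxK⟩
    have huc : LZ (p + 2) (d u) := by
      refine ⟨ε / 2, by positivity, fun m hm hs => ?_⟩
      have h6 : Sm (ε / 2) (m.map fun y => (y, T')) := by
        intro a' ha' c' hc'
        obtain ⟨a, ha, rfl⟩ := List.mem_map.1 ha'
        obtain ⟨c, hc, rfl⟩ := List.mem_map.1 hc'
        rw [Prod.dist_eq]
        refine max_lt (hs a ha c hc) ?_
        simp only [dist_self]
        positivity
      have h7 : ∀ y ∈ m.map (fun y => (y, T')), y.2 = T' := fun y hy => by
        obtain ⟨a, ha, rfl⟩ := List.mem_map.1 hy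
        rfl
      rw [hu, d_map (fun y => (y, T')) G m, hdG _ (by simpa using hm) h6 fun y hy => by
        rw [h7 y hy]; linarith]
      by_contra h0
      obtain ⟨y, hy, hyK⟩ := hsupp _ (by simpa using hm) (h6.mono (by linarith)) fun h => h0 (by
          rw [h, neg_zero])
      have h5 := hT y hyK
      rw [abs_le, h7 y hy] at h5
      linarith [h5.1]
    obtain ⟨c, v, hv, hc, ε₃, hε₃, huv⟩ := hb.2.2 p u hus huc
    -- the shift of the wall
    set W : Set (Y × ℝ) := {x | T' < x.2 ∧ x.2 ≤ 0} with hW
    set R : List (Y × ℝ) → ℤ := fun l => ρ (l.map Prod.fst) with hR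
    have hind : ∀ l : List (Y × ℝ), ind S l = ind {x : Y × ℝ | 0 < x.2} l + ind W l := by
      intro l
      cases l with
      | nil => simp
      | cons x l =>
        by_cases h1 : 0 < x.2
        · rw [ind_cons_of_mem (S := S) (show T' < x.2 by linarith),
            ind_cons_of_mem (S := {x : Y × ℝ | 0 < x.2}) h1,
            ind_cons_of_notMem (S := W) (fun h => absurd h.2 (not_le.2 h1))]
          ring
        · by_cases h2 : T' < x.2
          · rw [ind_cons_of_mem (S := S) h2, ind_cons_of_notMem (S := {x : Y × ℝ | 0 < x.2}) h1,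
              ind_cons_of_mem (S := W) ⟨h2, not_lt.1 h1⟩]
            ring
          · rw [ind_cons_of_notMem (S := S) h2, ind_cons_of_notMem (S := {x : Y × ℝ | 0 < x.2}) h1,
              ind_cons_of_notMem (S := W) fun h => h2 h.1]
            ring
    have hdind : d (ind S) = fun l => d (ind {x : Y × ℝ | 0 < x.2}) l + d (ind W) l := by
      funext l
      rw [← d_add_apply]
      congr 1
      funext m
      exact hind m
    have hv0 : p = 0 → v [] = 0 := fun h => by subst h; exact bd_nil hv
    -- the primitive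
    refine ⟨c, fun l => (c * cup 0 (ind W) R l + cup 1 (d (ind S)) PG l) -
      (cup 1 (d (ind S)) (fun l => v (l.map Prod.fst)) l + cup 0 (ind S) G l),
      ?_, fun h => hc (by omega), ?_⟩
    · -- supports
      refine Bd.sub (Bd.add ?_ ?_) (Bd.add ?_ ?_)
      · by_cases hc0 : c = 0
        · subst hc0
          simpa using Bd.zero
        · have hpn : p = n := by
            by_contra h
            exact hc0 (hc h)
          subst hpn
          refine Bd.const_mul ?_ c
          obtain ⟨K', hK', ε', hε', h'⟩ := hb.1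
          refine ⟨K' ×ˢ Metric.closedBall 0 (T + 2), hK'.prod Metric.isBounded_closedBall,
            min ε' 1, by positivity, fun l hl hs h0 => ?_⟩
          match l, hl with
          | x :: l, hl =>
            rw [cup_zero_cons] at h0
            have hx : x ∈ W := by
              by_contra h
              exact h0 (by rw [ind_cons_of_notMem h, zero_mul])
            obtain ⟨y, hy, hyK⟩ := h' _ (by simpa using hl)
              ((hs.mono (min_le_left _ _)).map_fst) fun h => h0 (by
                simp only [hR, List.map_cons] at h ⊢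
                rw [h, mul_zero])
            obtain ⟨z, hz, rfl⟩ := List.mem_map.1 hy
            refine ⟨z, hz, hyK, ?_⟩
            have h9 := hclose (hs.mono (min_le_right _ _)) x (by simp) z hz
            rw [abs_lt] at h9
            rw [Metric.mem_closedBall, Real.dist_eq, sub_zero, abs_le]
            have hx1 : T' < x.2 := hx.1
            have hx2 : x.2 ≤ 0 := hx.2
            constructor <;> linarith [h9.1, h9.2]
      · refine bd_wall hK1 ⟨ε / 4, by positivity, fun m hm hs hw h0 => ?_⟩
        by_contra hcon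
        refine h0 (prism_eq_zero fun m' hm' hm2 _ => ?_)
        by_contra hm0
        obtain ⟨h6, h7⟩ := hnear m m' hs hw hm2
        obtain ⟨x, hx, hxK, _⟩ := hGs m' (by omega) h6 hm0
        obtain ⟨z, hz, h⟩ := hm2 x hx
        apply hcon
        refine ⟨z, hz, ?_⟩
        rcases h with rfl | rfl
        · exact hxK
        · exact hxK
      · obtain ⟨K', hK', ε', hε', h'⟩ := hv
        refine bd_wall hK' ⟨ε', hε', fun m hm hs _ h0 => ?_⟩
        obtain ⟨y, hy, hyK⟩ := h' (m.map Prod.fst) (by simpa using hm) hs.map_fst h0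
        obtain ⟨z, hz, rfl⟩ := List.mem_map.1 hy
        exact ⟨z, hz, hyK⟩
      · refine ⟨(Prod.fst '' K) ×ˢ Set.Icc (-T - N * η) T, hK1.prod (Metric.isBounded_Icc _ _), ε / 2,
          by positivity, fun l hl hs h0 => ?_⟩
        match l, hl with
        | x :: l, hl =>
          rw [cup_zero_cons] at h0
          obtain ⟨z, hz, h⟩ := hGs _ hl hs fun h => h0 (by rw [h, mul_zero])
          exact ⟨z, hz, h.1, h.2⟩
    · -- the identity
      obtain ⟨ε₄, hε₄, hρ⟩ := hb.2.1
      refine ⟨min (ε / 8) (min ε₃ ε₄), by positivity, fun l hl hs => ?_⟩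
      have hs1 : Sm (ε / 8) l := hs.mono (min_le_left _ _)
      have hs3 : Sm ε₃ l := hs.mono ((min_le_right _ _).trans (min_le_left _ _))
      have hs4 : Sm ε₄ l := hs.mono ((min_le_right _ _).trans (min_le_right _ _))
      have hs2 : Sm (ε / 2) l := hs1.mono (by linarith)
      have E1 := h2 l hl hs2
      -- cup with G near the wall
      have E2 : cup 1 (d (ind S)) G l = cup 1 (d (ind S)) (fun l => u (l.map Prod.fst)) l -
          cup 1 (d (ind S)) (d PG) l := by
        match l, hl, hs1 with
        | x :: y :: l, hl, hs1 =>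
          rw [cup_one_d_ind, cup_one_d_ind, cup_one_d_ind]
          by_cases h1 : ind S [y] = ind S [x]
          · rw [h1]; ring
          · have hxy := hclose hs1 x (by simp) y (by simp)
            rw [abs_lt] at hxy
            have hy : |y.2 - T'| < ε / 8 := by
              by_cases hx : T' < x.2 <;> by_cases hy : T' < y.2
              · exact (h1 (by rw [ind_cons_of_mem (S := S) hx, ind_cons_of_mem (S := S) hy])).elim
              · rw [abs_lt]
                push Not at hy
                constructor <;> linarith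
              · rw [abs_lt]
                push Not at hx
                constructor <;> linarith
              · exact (h1 (by rw [ind_cons_of_notMem (S := S) hx,
                  ind_cons_of_notMem (S := S) hy])).elim
            have hz : ∀ z ∈ y :: l, |z.2 - T'| < ε / 4 := fun z hz => by
              have h9 := hclose hs1 z (List.mem_cons_of_mem _ hz) y (by simp)
              rw [abs_lt] at h9 hy ⊢
              constructor <;> linarith
            rw [h3 (y :: l) (by simpa using hl)
              ((hs1.sublist (List.sublist_cons_self _ _)).mono (by linarith)) hz]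
            ring
      have E3 : cup 1 (d (ind S)) (d PG) l = - d (cup 1 (d (ind S)) PG) l :=
        cup_one_d (k := p) (ind S) PG (fun _ => rfl) l hl
      -- the induction hypothesis
      have E4 : cup 1 (d (ind S)) (fun l => u (l.map Prod.fst)) l =
          c * cup 1 (d (ind S)) R l + cup 1 (d (ind S)) (d fun l => v (l.map Prod.fst)) l := by
        match l, hl, hs3 with
        | x :: y :: l, hl, hs3 =>
          rw [cup_one_d_ind, cup_one_d_ind, cup_one_d_ind, d_map]
          have := huv ((y :: l).map Prod.fst) (by simpa using hl)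
            (hs3.sublist (List.sublist_cons_self _ _)).map_fst
          have h9 : u ((y :: l).map Prod.fst) = c * ρ ((y :: l).map Prod.fst) +
            d v ((y :: l).map Prod.fst) := by linarith
          rw [h9]
          simp only [hR]
          ring
      have E5 : cup 1 (d (ind S)) (d fun l => v (l.map Prod.fst)) l =
          - d (cup 1 (d (ind S)) fun l => v (l.map Prod.fst)) l :=
        cup_one_d (k := p) (ind S) (fun l => v (l.map Prod.fst)) hv0 l hl
      -- the shift of the wall
      have E6 : c * cup 1 (d (ind S)) R l = c * gen ρ l + c * d (cup 0 (ind W) R) l := by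
        by_cases hc0 : c = 0
        · rw [hc0]; ring
        have hpn : p = n := by
          by_contra h
          exact hc0 (hc h)
        subst hpn
        have e := d_cup 0 (ind W) R l (by omega) (by omega)
        simp only [zero_add, pow_zero, one_mul] at e
        have e0 : cup 0 (ind W) (d R) l = 0 := by
          match l, hl, hs4 with
          | x :: l, hl, hs4 =>
            rw [cup_zero_cons, d_map, hρ _ (by simpa using hl) hs4.map_fst, mul_zero]
        rw [e0, add_zero] at e
        rw [e, hdind, cup_add_left]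
        simp only [gen]
        ring
      -- conclusion
      have E7 : d (fun l => (c * cup 0 (ind W) R l + cup 1 (d (ind S)) PG l) -
          (cup 1 (d (ind S)) (fun l => v (l.map Prod.fst)) l + cup 0 (ind S) G l)) l =
          (c * d (cup 0 (ind W) R) l + d (cup 1 (d (ind S)) PG) l) -
          (d (cup 1 (d (ind S)) fun l => v (l.map Prod.fst)) l + d (cup 0 (ind S) G) l) := by
        rw [d_sub_apply, d_add_apply, d_add_apply]
        have := d_smul_apply c (cup 0 (ind W) R) l
        simp only [smul_eq_mul] at this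
        rw [this]
      simp only
      rw [E7, E1, E2, E3, E4, E5]
      linarith [E6]

end Prod

end Vale.Agent.P267.AS
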