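import Vale.Agent.P267.H53.ASScale
import Vale.Agent.P267.H994.Nerve

/-!
# P267, package UNI-AS: transport to the manifold

`Piece U φ` : `U` is a relatively compact open subset of the uniform space `X` and `φ` is a chart
near the closure of `U` which maps `U` onto a star-shaped neighbourhood of `0`.

* `Piece.exists_primitive` : compactly supported integral Alexander-Spanier cohomology of `U`, in
  the language of `Vale.Agent.P267.H994` (functions on tuples, the filter `sm`).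
-/

namespace Vale.Agent.P267.AS

open Filter Topology Uniformity
open Vale.Agent.P267

variable {X Y : Type*}

section conv

theorem d_ofFn {n : ℕ} (f : List X → ℤ) (x : Fin (n + 1) → X) :
    d f (List.ofFn x) = ∑ i : Fin (n + 1), (-1) ^ (i : ℕ) *
      f (List.ofFn fun j : Fin n => x (i.succAbove j)) := by
  induction n generalizing f with
  | zero =>
    simp [d_cons]
  | succ n ih =>
    rw [List.ofFn_succ, d_cons, ih, Fin.sum_univ_succ (n := n + 1)]
    simp only [Fin.val_zero, pow_zero, one_mul, Fin.zero_succAbove, Fin.val_succ, pow_succ]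
    rw [sub_eq_add_neg, ← Finset.sum_neg_distrib]
    congr 1
    refine Finset.sum_congr rfl fun i _ => ?_
    have : (List.ofFn fun j : Fin (n + 1) => x (i.succ.succAbove j)) =
        x 0 :: List.ofFn fun j : Fin n => x (i.succAbove j).succ := by
      rw [List.ofFn_succ]
      simp only [Fin.succ_succAbove_zero, Fin.succ_succAbove_succ]
    rw [this]
    ring

theorem exists_ofFn {n : ℕ} {l : List X} (h : l.length = n) : ∃ x : Fin n → X, l = List.ofFn x := by
  subst h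
  exact ⟨l.get, (List.ofFn_get l).symm⟩

theorem sm_ofFn [PseudoMetricSpace X] {n : ℕ} {ε : ℝ} {x : Fin n → X} :
    Sm ε (List.ofFn x) ↔ ∀ i j, dist (x i) (x j) < ε := by
  unfold Sm
  simp only [List.forall_mem_ofFn_iff]

theorem lz_iff [PseudoMetricSpace X] {n : ℕ} {f : List X → ℤ} :
    LZ n f ↔ ∃ ε > 0, ∀ x : Fin n → X, (∀ i j, dist (x i) (x j) < ε) → f (List.ofFn x) = 0 := by
  constructor
  · rintro ⟨ε, hε, h⟩
    exact ⟨ε, hε, fun x hx => h _ (List.length_ofFn) (sm_ofFn.2 hx)⟩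
  · rintro ⟨ε, hε, h⟩
    refine ⟨ε, hε, fun l hl hs => ?_⟩
    obtain ⟨x, rfl⟩ := exists_ofFn hl
    exact h x (sm_ofFn.1 hs)

theorem suppG_iff [PseudoMetricSpace X] {n : ℕ} {K : Set X} {f : List X → ℤ} :
    SuppG n K f ↔ ∃ ε > 0, ∀ x : Fin n → X, (∀ i j, dist (x i) (x j) < ε) →
      f (List.ofFn x) ≠ 0 → ∃ i, x i ∈ K := by
  constructor
  · rintro ⟨ε, hε, h⟩
    refine ⟨ε, hε, fun x hx h0 => ?_⟩
    obtain ⟨y, hy, hyK⟩ := h _ (List.length_ofFn) (sm_ofFn.2 hx) h0
    obtain ⟨i, rfl⟩ := List.mem_ofFn.1 hy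
    exact ⟨i, hyK⟩
  · rintro ⟨ε, hε, h⟩
    refine ⟨ε, hε, fun l hl hs h0 => ?_⟩
    obtain ⟨x, rfl⟩ := exists_ofFn hl
    obtain ⟨i, hi⟩ := h x (sm_ofFn.1 hs) h0
    exact ⟨x i, List.mem_ofFn.2 ⟨i, rfl⟩, hi⟩

theorem ev_sm [UniformSpace X] {n : ℕ} {P : (Fin n → X) → Prop} :
    (∀ᶠ x in H994.sm n, P x) ↔ ∃ V ∈ 𝓤 X, ∀ x, (∀ i j, (x i, x j) ∈ V) → P x := by
  constructor
  · intro h
    have hle : ((𝓤 X).lift' fun V => {x : Fin n → X | ∀ i j, (x i, x j) ∈ V}) ≤ H994.sm n := by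
      refine le_iInf fun i => le_iInf fun j => ?_
      intro s hs
      obtain ⟨V, hV, hVs⟩ := mem_comap.1 hs
      refine (mem_lift'_sets ?_).2 ⟨V, hV, fun x hx => hVs (hx i j)⟩
      intro V V' hVV' x hx i j
      exact hVV' (hx i j)
    obtain ⟨V, hV, hVs⟩ := (mem_lift'_sets (by
      intro V V' hVV' x hx i j
      exact hVV' (hx i j))).1 (hle h)
    exact ⟨V, hV, fun x hx => hVs hx⟩
  · rintro ⟨V, hV, h⟩
    filter_upwards [H994.eventually_sm_of_mem hV] with x hx using h x hx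

end conv

section piece

variable [UniformSpace X] [NormedAddCommGroup Y] [NormedSpace ℝ Y]

/-- `U` is a relatively compact open subset of `X` and `φ` is a chart near the closure of `U` which
maps `U` onto a star-shaped neighbourhood of `0` -/
structure Piece (U : Set X) (φ : X → Y) : Prop where
  isOpen : IsOpen U
  compact : IsCompact (closure U)
  cont : ContinuousOn φ (closure U)
  inj : Set.InjOn φ (closure U)
  isOpen_image : IsOpen (φ '' U)
  star : StarConvex ℝ 0 (φ '' U)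
  zero_mem : (0 : Y) ∈ φ '' U

namespace Piece

variable {U : Set X} {φ : X → Y}

theorem unif (h : Piece U φ) {ε : ℝ} (hε : 0 < ε) :
    ∃ V ∈ 𝓤 X, ∀ x ∈ U, ∀ y ∈ U, (x, y) ∈ V → dist (φ x) (φ y) < ε := by
  have h1 := h.compact.uniformContinuousOn_of_continuous h.cont
  have h2 := h1 (Metric.dist_mem_uniformity hε)
  rw [mem_map, mem_inf_principal] at h2
  exact ⟨_, h2, fun x hx y hy hxy => hxy ⟨subset_closure hx, subset_closure hy⟩⟩

theorem unif' (h : Piece U φ) {V : Set (X × X)} (hV : V ∈ 𝓤 X) :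
    ∃ ε > 0, ∀ x ∈ U, ∀ y ∈ U, dist (φ x) (φ y) < ε → (x, y) ∈ V := by
  obtain ⟨V', hV', hVo, hVV'⟩ : ∃ V' ∈ 𝓤 X, IsOpen V' ∧ V' ⊆ V := by
    obtain ⟨V', ⟨hV', hVo⟩, h⟩ := uniformity_hasBasis_open.mem_iff.1 hV
    exact ⟨V', hV', hVo, h⟩
  have hS : IsCompact ((closure U ×ˢ closure U) \ V') := (h.compact.prod h.compact).diff hVo
  rcases Set.eq_empty_or_nonempty ((closure U ×ˢ closure U) \ V') with he | hne
  · refine ⟨1, one_pos, fun x hx y hy _ => hVV' ?_⟩
    by_contra hcon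
    have : (x, y) ∈ (closure U ×ˢ closure U) \ V' :=
      ⟨⟨subset_closure hx, subset_closure hy⟩, hcon⟩
    rw [he] at this
    exact this
  · have hc : ContinuousOn (fun p : X × X => dist (φ p.1) (φ p.2))
        ((closure U ×ˢ closure U) \ V') := by
      have h1 : ContinuousOn (fun p : X × X => φ p.1) ((closure U ×ˢ closure U) \ V') :=
        h.cont.comp continuousOn_fst fun p hp => hp.1.1
      have h2 : ContinuousOn (fun p : X × X => φ p.2) ((closure U ×ˢ closure U) \ V') :=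
        h.cont.comp continuousOn_snd fun p hp => hp.1.2
      exact continuous_dist.comp_continuousOn (h1.prodMk h2)
    obtain ⟨p, hp, hmin⟩ := hS.exists_isMinOn hne hc
    refine ⟨dist (φ p.1) (φ p.2), ?_, fun x hx y hy hxy => hVV' ?_⟩
    · rw [gt_iff_lt, dist_pos]
      intro he
      have := h.inj hp.1.1 hp.1.2 he
      apply hp.2
      rw [← Prod.mk.eta (p := p), ← this]
      exact refl_mem_uniformity hV'
    · by_contra hcon
      have h1 : (x, y) ∈ (closure U ×ˢ closure U) \ V' :=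
        ⟨⟨subset_closure hx, subset_closure hy⟩, hcon⟩
      have h2 : dist (φ p.1) (φ p.2) ≤ dist (φ x) (φ y) := hmin h1
      linarith

/-- the inverse chart -/
noncomputable def inv (h : Piece U φ) (y : Y) : X :=
  open Classical in if hy : ∃ x ∈ U, φ x = y then hy.choose else h.zero_mem.choose

theorem inv_mem (h : Piece U φ) {y : Y} (hy : y ∈ φ '' U) : h.inv y ∈ U ∧ φ (h.inv y) = y := by
  have hy' : ∃ x ∈ U, φ x = y := hy
  rw [inv, dif_pos hy']
  exact hy'.choose_spec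

theorem inv_map (h : Piece U φ) {x : X} (hx : x ∈ U) : h.inv (φ x) = x := by
  have := h.inv_mem ⟨x, hx, rfl⟩
  exact h.inj (subset_closure this.1) (subset_closure hx) this.2

theorem continuousOn_inv (h : Piece U φ) : ContinuousOn h.inv (φ '' U) := by
  refine UniformContinuousOn.continuousOn ?_
  intro V hV
  obtain ⟨ε, hε, h1⟩ := h.unif' hV
  rw [mem_map, mem_inf_principal]
  filter_upwards [Metric.dist_mem_uniformity hε] with p hp hpU
  refine h1 _ (h.inv_mem hpU.1).1 _ (h.inv_mem hpU.2).1 ?_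
  rw [(h.inv_mem hpU.1).2, (h.inv_mem hpU.2).2]
  exact hp

open Classical in
/-- transport of a cochain from `X` to `Y` -/
noncomputable def push (h : Piece U φ) {q : ℕ} (F : H994.Co X q) (l : List Y) : ℤ :=
  if ∀ y ∈ l, y ∈ φ '' U then F (fun i => h.inv (l.getD i 0)) else 0

open Classical in
/-- transport of a cochain from `Y` to `X` -/
noncomputable def pull (U : Set X) (φ : X → Y) (q : ℕ) (f : List Y → ℤ) : H994.Co X q :=
  fun x => if ∀ i, x i ∈ U then f (List.ofFn fun i => φ (x i)) else 0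

theorem push_ofFn (h : Piece U φ) {q : ℕ} (F : H994.Co X q) {y : Fin (q + 1) → Y}
    (hy : ∀ i, y i ∈ φ '' U) : h.push F (List.ofFn y) = F fun i => h.inv (y i) := by
  unfold push
  rw [if_pos (by
    intro z hz
    obtain ⟨i, rfl⟩ := List.mem_ofFn.1 hz
    exact hy i)]
  congr 1
  funext i
  congr 1
  rw [List.getD_eq_getElem _ _ (by simp; omega), List.getElem_ofFn]

theorem push_ne_zero (h : Piece U φ) {q : ℕ} (F : H994.Co X q) {y : Fin (q + 1) → Y}
    (h0 : h.push F (List.ofFn y) ≠ 0) : ∀ i, y i ∈ φ '' U := by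
  by_contra hcon
  apply h0
  unfold push
  rw [if_neg]
  intro hz
  exact hcon fun i => hz _ (List.mem_ofFn.2 ⟨i, rfl⟩)

omit [UniformSpace X] [NormedAddCommGroup Y] [NormedSpace ℝ Y] in
theorem pull_of_mem {q : ℕ} {f : List Y → ℤ} {x : Fin (q + 1) → X} (hx : ∀ i, x i ∈ U) :
    pull U φ q f x = f (List.ofFn fun i => φ (x i)) := by
  unfold pull
  rw [if_pos hx]

omit [UniformSpace X] [NormedAddCommGroup Y] [NormedSpace ℝ Y] in
theorem pull_of_notMem {q : ℕ} {f : List Y → ℤ} {x : Fin (q + 1) → X} (hx : ∃ i, x i ∉ U) :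
    pull U φ q f x = 0 := by
  unfold pull
  rw [if_neg (by push Not; exact hx)]

omit [UniformSpace X] [NormedAddCommGroup Y] [NormedSpace ℝ Y] in
theorem d_pull_of_mem {q : ℕ} {f : List Y → ℤ} {x : Fin (q + 2) → X} (hx : ∀ i, x i ∈ U) :
    H994.d (pull U φ q f) x = d f (List.ofFn fun i => φ (x i)) := by
  rw [d_ofFn]
  unfold H994.d
  refine Finset.sum_congr rfl fun i _ => ?_
  rw [pull_of_mem fun j => hx _]

/-- transport to `Y` -/
theorem push_spec (h : Piece U φ) {q : ℕ} {F : H994.Co X q} (hc : H994.Closed F)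
    (hs : H994.CS U F) : CS (φ '' U) (q + 1) (h.push F) ∧ LZ (q + 2) (d (h.push F)) := by
  obtain ⟨K, hKU, hK, hs⟩ := hs
  obtain ⟨V₁, hV₁, h1⟩ := ev_sm.1 hs
  obtain ⟨V₂, hV₂, h2⟩ := ev_sm.1 hc
  obtain ⟨ε₁, hε₁, h3⟩ := h.unif' (inter_mem hV₁ hV₂)
  have hKt : IsCompact (φ '' K) :=
    hK.image_of_continuousOn (h.cont.mono (hKU.trans subset_closure))
  have hKtU : φ '' K ⊆ φ '' U := Set.image_mono hKU
  obtain ⟨ε₂, hε₂, h4⟩ := hKt.exists_thickening_subset_open h.isOpen_image hKtU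
  set ε := min ε₁ ε₂ with hε
  have hε0 : 0 < ε := by positivity
  have key : ∀ y : Fin (q + 1) → Y, (∀ i j, dist (y i) (y j) < ε) →
      h.push F (List.ofFn y) ≠ 0 → ∀ i, y i ∈ φ '' K := by
    intro y hy h0 i
    have hyU := h.push_ne_zero F h0
    rw [h.push_ofFn F hyU] at h0
    have hsm : ∀ i j, (h.inv (y i), h.inv (y j)) ∈ V₁ ∩ V₂ := by
      intro i j
      refine h3 _ (h.inv_mem (hyU i)).1 _ (h.inv_mem (hyU j)).1 ?_
      rw [(h.inv_mem (hyU i)).2, (h.inv_mem (hyU j)).2]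
      exact (hy i j).trans_le (min_le_left _ _)
    have hmem : h.inv (y i) ∈ K := by
      by_contra hcon
      exact h0 (h1 _ (fun i j => (hsm i j).1) ⟨i, hcon⟩)
    exact ⟨_, hmem, (h.inv_mem (hyU i)).2⟩
  constructor
  · refine ⟨φ '' K, hKt, hKtU, suppG_iff.2 ⟨ε, hε0, fun y hy h0 => ⟨0, key y hy h0 0⟩⟩⟩
  · refine lz_iff.2 ⟨ε, hε0, fun y hy => ?_⟩
    by_cases hyU : ∀ i, y i ∈ φ '' U
    · have e1 : d (h.push F) (List.ofFn y) = H994.d F fun i => h.inv (y i) := by
        rw [d_ofFn]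
        unfold H994.d
        refine Finset.sum_congr rfl fun i _ => ?_
        rw [h.push_ofFn F fun j => hyU _]
      rw [e1]
      refine h2 _ fun i j => ?_
      refine (h3 _ (h.inv_mem (hyU i)).1 _ (h.inv_mem (hyU j)).1 ?_).2
      rw [(h.inv_mem (hyU i)).2, (h.inv_mem (hyU j)).2]
      exact (hy i j).trans_le (min_le_left _ _)
    · rw [d_ofFn]
      refine Finset.sum_eq_zero fun i _ => ?_
      have : h.push F (List.ofFn fun j : Fin (q + 1) => y (i.succAbove j)) = 0 := by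
        by_contra h0
        apply hyU
        intro k
        have h5 := key _ (fun a b => hy _ _) h0 0
        refine h4 ?_
        rw [Metric.mem_thickening_iff]
        exact ⟨_, h5, (hy _ _).trans_le (min_le_right _ _)⟩
      rw [this, mul_zero]

/-- transport to `X` -/
theorem pull_cs (h : Piece U φ) [ProperSpace Y] {q : ℕ} {f : List Y → ℤ}
    (hf : CS (φ '' U) (q + 1) f) : H994.CS U (pull U φ q f) := by
  obtain ⟨K, hK, hKU, hs⟩ := hf
  obtain ⟨ε₁, hε₁, hs⟩ := suppG_iff.1 hs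
  obtain ⟨ε₂, hε₂, h4⟩ := hK.exists_cthickening_subset_open h.isOpen_image hKU
  set ε := min ε₁ ε₂ with hε
  have hε0 : 0 < ε := by positivity
  obtain ⟨V, hV, h5⟩ := h.unif hε0
  refine ⟨h.inv '' (Metric.cthickening ε₂ K), ?_, ?_, ?_⟩
  · rintro _ ⟨y, hy, rfl⟩
    exact (h.inv_mem (h4 hy)).1
  · exact hK.cthickening.image_of_continuousOn (h.continuousOn_inv.mono h4)
  · refine ev_sm.2 ⟨V, hV, fun x hx => ?_⟩
    rintro ⟨i, hi⟩
    by_contra h0
    have hxU : ∀ i, x i ∈ U := by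
      by_contra hcon
      push Not at hcon
      exact h0 (pull_of_notMem hcon)
    rw [pull_of_mem hxU] at h0
    have hsm : ∀ i j, dist (φ (x i)) (φ (x j)) < ε := fun i j => h5 _ (hxU i) _ (hxU j) (hx i j)
    obtain ⟨j, hj⟩ := hs _ (fun i j => (hsm i j).trans_le (min_le_left _ _)) h0
    apply hi
    refine ⟨φ (x i), ?_, h.inv_map (hxU i)⟩
    exact Metric.mem_cthickening_of_dist_le _ _ _ _ hj ((hsm i j).le.trans (min_le_right _ _))

/-- a face of a small tuple which leaves `U` -/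
theorem d_eq_zero_of_notMem {q : ℕ} {F : H994.Co X q} (hU : IsOpen U) (hF : H994.CS U F) :
    ∀ᶠ x in H994.sm (q + 2), (∃ i, x i ∉ U) → H994.d F x = 0 := by
  obtain ⟨K, hKU, hK, hs⟩ := hF
  obtain ⟨V₁, hV₁, h1⟩ := ev_sm.1 hs
  obtain ⟨V, hV, -, hVU⟩ := lebesgue_number_of_compact_open hK hU hKU
  refine ev_sm.2 ⟨V₁ ∩ V, inter_mem hV₁ hV, fun x hx => ?_⟩
  rintro ⟨i, hi⟩
  unfold H994.d
  refine Finset.sum_eq_zero fun j _ => ?_
  have : F (fun k => x (j.succAbove k)) = 0 := by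
    by_contra h0
    have h3 : x (j.succAbove 0) ∈ K := by
      by_contra hcon
      exact h0 (h1 _ (fun a b => (hx _ _).1) ⟨0, hcon⟩)
    exact hi (hVU _ h3 (hx _ _).2)
  rw [this, mul_zero]

/-- **compactly supported cohomology of a piece** -/
theorem exists_primitive [ProperSpace Y] (h : Piece U φ) {n : ℕ} {ρ : List Y → ℤ}
    (hb : IsBase Y n ρ) (hρ : ∀ s : ℝ, 0 < s → ∀ l : List Y, ρ (l.map fun x => s • x) = ρ l)
    {q : ℕ} (F : H994.Co X (q + 1)) (hc : H994.Closed F) (hs : H994.CS U F) :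
    ∃ (c : ℤ) (G : H994.Co X q), H994.CS U G ∧ (q + 1 ≠ n → c = 0) ∧
      H994.Eqv F (c • pull U φ (q + 1) ρ + H994.d G) := by
  obtain ⟨h1, h2⟩ := h.push_spec hc hs
  obtain ⟨c, g, hg, hcn, hfg⟩ := hb.scale hρ h.star (h.isOpen_image.mem_nhds h.zero_mem) (q + 1)
    (h.push F) h1 h2
  have hG := h.pull_cs hg
  refine ⟨c, pull U φ q g, hG, hcn, ?_⟩
  obtain ⟨ε, hε, h3⟩ := lz_iff.1 hfg
  obtain ⟨V, hV, h4⟩ := h.unif hε
  obtain ⟨K, hKU, -, h5⟩ := hs
  filter_upwards [H994.eventually_sm_of_mem hV, d_eq_zero_of_notMem h.isOpen hG, h5]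
    with x hx hdG hF
  by_cases hxU : ∀ i, x i ∈ U
  · have e := h3 (fun i => φ (x i)) fun i j => h4 _ (hxU i) _ (hxU j) (hx i j)
    have e1 : h.push F (List.ofFn fun i => φ (x i)) = F x := by
      rw [h.push_ofFn F fun i => ⟨x i, hxU i, rfl⟩]
      congr 1
      funext i
      exact h.inv_map (hxU i)
    rw [e1] at e
    rw [Pi.add_apply, Pi.smul_apply, pull_of_mem hxU, d_pull_of_mem hxU, smul_eq_mul]
    linarith
  · push Not at hxU
    rw [Pi.add_apply, Pi.smul_apply, pull_of_notMem hxU, hdG hxU, smul_zero, add_zero]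
    obtain ⟨i, hi⟩ := hxU
    exact hF ⟨i, fun hcon => hi (hKU hcon)⟩

/-- the generator is closed -/
theorem closed_gen [ProperSpace Y] (h : Piece U φ) {n : ℕ} {ρ : List Y → ℤ}
    (hb : IsBase Y n ρ) (hρ : ∀ s : ℝ, 0 < s → ∀ l : List Y, ρ (l.map fun x => s • x) = ρ l) :
    H994.Closed (pull U φ n ρ) := by
  have h1 := hb.supp_gen hρ (h.isOpen_image.mem_nhds h.zero_mem)
  have hG := h.pull_cs h1
  obtain ⟨ε, hε, h3⟩ := lz_iff.1 hb.2.1
  obtain ⟨V, hV, h4⟩ := h.unif hε
  filter_upwards [H994.eventually_sm_of_mem hV, d_eq_zero_of_notMem h.isOpen hG] with x hx hdG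
  by_cases hxU : ∀ i, x i ∈ U
  · rw [d_pull_of_mem hxU]
    exact h3 (fun i => φ (x i)) fun i j => h4 _ (hxU i) _ (hxU j) (hx i j)
  · push Not at hxU
    exact hdG hxU

/-- the generator is compactly supported -/
theorem cs_gen [ProperSpace Y] (h : Piece U φ) {n : ℕ} {ρ : List Y → ℤ}
    (hb : IsBase Y n ρ) (hρ : ∀ s : ℝ, 0 < s → ∀ l : List Y, ρ (l.map fun x => s • x) = ρ l) :
    H994.CS U (pull U φ n ρ) :=
  h.pull_cs (hb.supp_gen hρ (h.isOpen_image.mem_nhds h.zero_mem))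

end Piece

end piece

end Vale.Agent.P267.AS
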