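import Mathlib

/-!
# P267, package UNI-AS: Alexander-Spanier cochains on lists of points

A cochain is a function `f : List X → A`; the cochains of `n` points are looked at on lists of
length `n` (degree `n - 1`).  Everything is considered on small lists only (`LZ`).

* `d f` : the coboundary, `(d f) [x₀, …, xₙ] = ∑ (-1)^i f [x₀, …, x̂ᵢ, …, xₙ]`.
* `cup k f g` : the cup product of `f` (of `k + 1` points) and `g`:
  `(cup k f g) [x₀, …, xₙ] = f [x₀, …, x_k] * g [x_k, …, xₙ]`.
* `prism a b f` : the prism operator of two (arbitrary) maps.
* `Sm ε l` : the list `l` has diameter `< ε`.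
* `LZ n f` : `f` vanishes on all sufficiently small lists of length `n`.
-/

namespace Vale.Agent.P267.AS

variable {X Y Z : Type*} {A : Type*}

section Group

variable [AddCommGroup A]

/-- the coboundary -/
def d (f : List X → A) : List X → A
  | [] => 0
  | x :: l => f l - d (fun m => f (x :: m)) l

@[simp] theorem d_nil (f : List X → A) : d f [] = 0 := rfl

theorem d_cons (f : List X → A) (x : X) (l : List X) :
    d f (x :: l) = f l - d (fun m => f (x :: m)) l := rfl

theorem d_add_apply (f g : List X → A) (l : List X) :
    d (fun m => f m + g m) l = d f l + d g l := by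
  induction l generalizing f g with
  | nil => simp
  | cons x l ih => rw [d_cons, d_cons, d_cons, ih]; abel

theorem d_sub_apply (f g : List X → A) (l : List X) :
    d (fun m => f m - g m) l = d f l - d g l := by
  induction l generalizing f g with
  | nil => simp
  | cons x l ih => rw [d_cons, d_cons, d_cons, ih]; abel

theorem d_neg_apply (f : List X → A) (l : List X) :
    d (fun m => - f m) l = - d f l := by
  induction l generalizing f with
  | nil => simp
  | cons x l ih => rw [d_cons, d_cons, ih]; abel

@[simp] theorem d_zero_apply (l : List X) : d (fun _ => (0 : A)) l = 0 := by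
  induction l with
  | nil => simp
  | cons x l ih => rw [d_cons, ih]; simp

theorem d_smul_apply {R : Type*} [Monoid R] [DistribMulAction R A] (c : R) (f : List X → A)
    (l : List X) : d (fun m => c • f m) l = c • d f l := by
  induction l generalizing f with
  | nil => simp
  | cons x l ih => rw [d_cons, d_cons, ih, smul_sub]

theorem d_sum_apply {ι : Type*} (s : Finset ι) (f : ι → List X → A) (l : List X) :
    d (fun m => ∑ i ∈ s, f i m) l = ∑ i ∈ s, d (f i) l := by
  classical
  induction s using Finset.induction_on with
  | empty => simp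
  | insert a s ha ih =>
    rw [Finset.sum_insert ha, ← ih, ← d_add_apply]
    congr 1
    funext m
    rw [Finset.sum_insert ha]

/-- additive maps commute with the coboundary -/
theorem map_d {B : Type*} [AddCommGroup B] (φ : A →+ B) (f : List X → A) (l : List X) :
    d (fun m => φ (f m)) l = φ (d f l) := by
  induction l generalizing f with
  | nil => simp
  | cons x l ih => rw [d_cons, d_cons, ih, map_sub]

theorem d_d (f : List X → A) (l : List X) : d (d f) l = 0 := by
  induction l generalizing f with
  | nil => simp
  | cons x l ih =>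
    rw [d_cons]
    have : (fun m => d f (x :: m)) = fun m => f m - d (fun n => f (x :: n)) m := rfl
    rw [this, d_sub_apply, ih]
    abel

/-- `d f l` depends only on the faces of `l` -/
theorem d_congr {f g : List X → A} {l : List X}
    (h : ∀ m, m.Sublist l → m.length + 1 = l.length → f m = g m) : d f l = d g l := by
  induction l generalizing f g with
  | nil => rfl
  | cons x l ih =>
    rw [d_cons, d_cons, h l (List.sublist_cons_self x l) rfl]
    congr 1
    exact ih fun m hm hl => h (x :: m) (hm.cons_cons x) (by simp [← hl])

theorem d_eq_zero {f : List X → A} {l : List X}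
    (h : ∀ m, m.Sublist l → m.length + 1 = l.length → f m = 0) : d f l = 0 := by
  rw [d_congr (g := fun _ => 0) h, d_zero_apply]

theorem d_map (a : X → Y) (f : List Y → A) (l : List X) :
    d (fun m => f (m.map a)) l = d f (l.map a) := by
  induction l generalizing f with
  | nil => rfl
  | cons x l ih =>
    rw [d_cons, List.map_cons, d_cons, ← ih]
    rfl

/-- the prism operator of two maps -/
def prism (a b : X → Y) (f : List Y → A) : List X → A
  | [] => 0
  | x :: l => f (a x :: b x :: l.map b) - prism a b (fun m => f (a x :: m)) l

@[simp] theorem prism_nil (a b : X → Y) (f : List Y → A) : prism a b f [] = 0 := rfl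

theorem prism_cons (a b : X → Y) (f : List Y → A) (x : X) (l : List X) :
    prism a b f (x :: l) = f (a x :: b x :: l.map b) - prism a b (fun m => f (a x :: m)) l := rfl

theorem prism_sub_apply (a b : X → Y) (f g : List Y → A) (l : List X) :
    prism a b (fun m => f m - g m) l = prism a b f l - prism a b g l := by
  induction l generalizing f g with
  | nil => simp
  | cons x l ih => rw [prism_cons, prism_cons, prism_cons, ih]; abel

theorem prism_add_apply (a b : X → Y) (f g : List Y → A) (l : List X) :
    prism a b (fun m => f m + g m) l = prism a b f l + prism a b g l := by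
  induction l generalizing f g with
  | nil => simp
  | cons x l ih => rw [prism_cons, prism_cons, prism_cons, ih]; abel

@[simp] theorem prism_zero_apply (a b : X → Y) (l : List X) :
    prism a b (fun _ => (0 : A)) l = 0 := by
  induction l with
  | nil => simp
  | cons x l ih => rw [prism_cons, ih]; simp

/-- the homotopy formula -/
theorem d_prism (a b : X → Y) (f : List Y → A) (l : List X) :
    d (prism a b f) l + prism a b (d f) l = f (l.map b) - f (l.map a) := by
  induction l generalizing f with
  | nil => simp
  | cons x m ih =>
    have e1 : d (prism a b f) (x :: m) = prism a b f m - (d (fun n => f (a x :: b x :: n))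
        (m.map b) - d (prism a b (fun n => f (a x :: n))) m) := by
      rw [d_cons]
      congr 1
      have : (fun n => prism a b f (x :: n)) = fun n => (fun n => f (a x :: b x :: n.map b)) n -
        (prism a b (fun n => f (a x :: n))) n := rfl
      rw [this, d_sub_apply]
      congr 1
      exact d_map b (fun n => f (a x :: b x :: n)) m
    have e2 : prism a b (d f) (x :: m) = (f (b x :: m.map b) - (f (a x :: m.map b) -
        d (fun n => f (a x :: b x :: n)) (m.map b))) - (prism a b f m -
        prism a b (d (fun n => f (a x :: n))) m) := by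
      rw [prism_cons]
      congr 1
      · exact prism_sub_apply a b f (d (fun n => f (a x :: n))) m
    rw [e1, e2]
    have := ih (fun n => f (a x :: n))
    simp only [List.map_cons]
    rw [show f (b x :: m.map b) - f (a x :: m.map a) = f (b x :: m.map b) - f (a x :: m.map b) +
      (f (a x :: m.map b) - f (a x :: m.map a)) by abel, ← this]
    abel

/-- `prism a b f l` depends only on the values of `f` on lists of length `l.length + 1` with
entries among `a x`, `b x`, `x ∈ l`, and containing `a x` or `b x` for each `x ∈ l`. -/
theorem prism_congr {a b : X → Y} {f g : List Y → A} {l : List X}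
    (h : ∀ m : List Y, m.length = l.length + 1 → (∀ y ∈ m, ∃ x ∈ l, y = a x ∨ y = b x) →
      (∀ x ∈ l, a x ∈ m ∨ b x ∈ m) → f m = g m) : prism a b f l = prism a b g l := by
  induction l generalizing f g with
  | nil => rfl
  | cons x l ih =>
    rw [prism_cons, prism_cons]
    congr 1
    · refine h _ (by simp) (fun y hy => ?_) (fun z hz => ?_)
      · rcases List.mem_cons.1 hy with rfl | hy
        · exact ⟨x, List.mem_cons_self, Or.inl rfl⟩
        rcases List.mem_cons.1 hy with rfl | hy
        · exact ⟨x, List.mem_cons_self, Or.inr rfl⟩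
        obtain ⟨z, hz, rfl⟩ := List.mem_map.1 hy
        exact ⟨z, List.mem_cons_of_mem _ hz, Or.inr rfl⟩
      · rcases List.mem_cons.1 hz with rfl | hz
        · exact Or.inl List.mem_cons_self
        · exact Or.inr (List.mem_cons_of_mem _ (List.mem_cons_of_mem _ (List.mem_map_of_mem hz)))
    · refine ih fun m hm hy hc => h _ (by simp [hm]) (fun y hy' => ?_) (fun z hz => ?_)
      · rcases List.mem_cons.1 hy' with rfl | hy'
        · exact ⟨x, List.mem_cons_self, Or.inl rfl⟩
        obtain ⟨z, hz, h'⟩ := hy y hy'
        exact ⟨z, List.mem_cons_of_mem _ hz, h'⟩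
      · rcases List.mem_cons.1 hz with rfl | hz
        · exact Or.inl List.mem_cons_self
        · exact (hc z hz).imp (List.mem_cons_of_mem _) (List.mem_cons_of_mem _)

theorem prism_eq_zero {a b : X → Y} {f : List Y → A} {l : List X}
    (h : ∀ m : List Y, m.length = l.length + 1 → (∀ y ∈ m, ∃ x ∈ l, y = a x ∨ y = b x) →
      (∀ x ∈ l, a x ∈ m ∨ b x ∈ m) → f m = 0) : prism a b f l = 0 := by
  rw [prism_congr (g := fun _ => 0) h, prism_zero_apply]

theorem prism_sum_apply {ι : Type*} (s : Finset ι) (a b : X → Y) (f : ι → List Y → A)
    (l : List X) : prism a b (fun m => ∑ i ∈ s, f i m) l = ∑ i ∈ s, prism a b (f i) l := by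
  classical
  induction s using Finset.induction_on with
  | empty => simp
  | insert i s hi ih =>
    rw [Finset.sum_insert hi, ← ih, ← prism_add_apply]
    congr 1
    funext m
    rw [Finset.sum_insert hi]

end Group

section Ring

variable [CommRing A]

/-- the cup product of a cochain `f` of `k + 1` points and a cochain `g` -/
def cup : ℕ → (List X → A) → (List X → A) → List X → A
  | _, _, _, [] => 0
  | 0, f, g, x :: l => f [x] * g (x :: l)
  | k + 1, f, g, x :: l => cup k (fun m => f (x :: m)) g l

@[simp] theorem cup_nil (k : ℕ) (f g : List X → A) : cup k f g [] = 0 := by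
  cases k <;> rfl

theorem cup_zero_cons (f g : List X → A) (x : X) (l : List X) :
    cup 0 f g (x :: l) = f [x] * g (x :: l) := rfl

theorem cup_succ_cons (k : ℕ) (f g : List X → A) (x : X) (l : List X) :
    cup (k + 1) f g (x :: l) = cup k (fun m => f (x :: m)) g l := rfl

theorem cup_sub_left (k : ℕ) (f f' g : List X → A) (l : List X) :
    cup k (fun m => f m - f' m) g l = cup k f g l - cup k f' g l := by
  induction k generalizing f f' l with
  | zero => cases l with
    | nil => simp
    | cons x l => simp only [cup_zero_cons]; ring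
  | succ k ih => cases l with
    | nil => simp
    | cons x l => simp only [cup_succ_cons]; exact ih _ _ _

theorem cup_add_left (k : ℕ) (f f' g : List X → A) (l : List X) :
    cup k (fun m => f m + f' m) g l = cup k f g l + cup k f' g l := by
  induction k generalizing f f' l with
  | zero => cases l with
    | nil => simp
    | cons x l => simp only [cup_zero_cons]; ring
  | succ k ih => cases l with
    | nil => simp
    | cons x l => simp only [cup_succ_cons]; exact ih _ _ _

theorem cup_smul_left (k : ℕ) (c : A) (f g : List X → A) (l : List X) :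
    cup k (fun m => c * f m) g l = c * cup k f g l := by
  induction k generalizing f l with
  | zero => cases l with
    | nil => simp
    | cons x l => simp only [cup_zero_cons]; ring
  | succ k ih => cases l with
    | nil => simp
    | cons x l => simp only [cup_succ_cons]; exact ih _ _

theorem cup_sub_right (k : ℕ) (f g g' : List X → A) (l : List X) :
    cup k f (fun m => g m - g' m) l = cup k f g l - cup k f g' l := by
  induction k generalizing f l with
  | zero => cases l with
    | nil => simp
    | cons x l => simp only [cup_zero_cons]; ring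
  | succ k ih => cases l with
    | nil => simp
    | cons x l => simp only [cup_succ_cons]; exact ih _ _

theorem cup_add_right (k : ℕ) (f g g' : List X → A) (l : List X) :
    cup k f (fun m => g m + g' m) l = cup k f g l + cup k f g' l := by
  induction k generalizing f l with
  | zero => cases l with
    | nil => simp
    | cons x l => simp only [cup_zero_cons]; ring
  | succ k ih => cases l with
    | nil => simp
    | cons x l => simp only [cup_succ_cons]; exact ih _ _

theorem cup_smul_right (k : ℕ) (c : A) (f g : List X → A) (l : List X) :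
    cup k f (fun m => c * g m) l = c * cup k f g l := by
  induction k generalizing f l with
  | zero => cases l with
    | nil => simp
    | cons x l => simp only [cup_zero_cons]; ring
  | succ k ih => cases l with
    | nil => simp
    | cons x l => simp only [cup_succ_cons]; exact ih _ _

@[simp] theorem cup_zero_left (k : ℕ) (g : List X → A) (l : List X) :
    cup k (fun _ => 0) g l = 0 := by
  have := cup_smul_left k 0 (fun _ => 0) g l
  simpa using this

@[simp] theorem cup_zero_right (k : ℕ) (f : List X → A) (l : List X) :
    cup k f (fun _ => 0) l = 0 := by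
  have := cup_smul_right k 0 f (fun _ => 0) l
  simpa using this

theorem cup_sum_right {ι : Type*} (s : Finset ι) (k : ℕ) (f : List X → A) (g : ι → List X → A)
    (l : List X) : cup k f (fun m => ∑ i ∈ s, g i m) l = ∑ i ∈ s, cup k f (g i) l := by
  classical
  induction s using Finset.induction_on with
  | empty => simp
  | insert a s ha ih =>
    rw [Finset.sum_insert ha, ← ih, ← cup_add_right]
    congr 1
    funext m
    rw [Finset.sum_insert ha]

theorem cup_sum_left {ι : Type*} (s : Finset ι) (k : ℕ) (f : ι → List X → A) (g : List X → A)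
    (l : List X) : cup k (fun m => ∑ i ∈ s, f i m) g l = ∑ i ∈ s, cup k (f i) g l := by
  classical
  induction s using Finset.induction_on with
  | empty => simp
  | insert a s ha ih =>
    rw [Finset.sum_insert ha, ← ih, ← cup_add_left]
    congr 1
    funext m
    rw [Finset.sum_insert ha]

/-- Leibniz rule -/
theorem d_cup (k : ℕ) (f g : List X → A) (l : List X) (hl : 2 ≤ l.length) (hk : k + 1 < l.length) :
    d (cup k f g) l = cup (k + 1) (d f) g l + (-1) ^ k * cup k f (d g) l := by
  induction k generalizing f l with
  | zero =>
    match l, hl with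
    | x :: y :: l, _ =>
      rw [d_cons]
      have e : (fun m => cup 0 f g (x :: m)) = fun m => f [x] * g (x :: m) := rfl
      have e' := d_smul_apply (f [x]) (fun m => g (x :: m)) (y :: l)
      simp only [smul_eq_mul] at e'
      rw [e, e', cup_succ_cons, cup_zero_cons, cup_zero_cons, cup_zero_cons, d_cons g]
      simp only [d_cons, d_nil]
      ring
  | succ k ih =>
    match l, hl, hk with
    | x :: l, _, hk =>
      rw [d_cons]
      have e : (fun m => cup (k + 1) f g (x :: m)) = cup k (fun m => f (x :: m)) g := by
        funext m; rfl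
      have hl' : 2 ≤ l.length := by simp at hk; omega
      have hk' : k + 1 < l.length := by simpa using hk
      rw [e, ih _ l hl' hk', cup_succ_cons (k + 1) (d f)]
      have e2 : (fun m => d f (x :: m)) = fun m => f m - d (fun n => f (x :: n)) m := rfl
      rw [e2, cup_sub_left, cup_succ_cons k f]
      ring

theorem cup_map (a : X → Y) (k : ℕ) (f g : List Y → A) (l : List X) :
    cup k (fun m => f (m.map a)) (fun m => g (m.map a)) l = cup k f g (l.map a) := by
  induction k generalizing f l with
  | zero => cases l with
    | nil => rfl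
    | cons x l => rfl
  | succ k ih => cases l with
    | nil => rfl
    | cons x l => exact ih (fun m => f (a x :: m)) l

/-- `cup k f g l` depends only on the value of `f` on the first `k + 1` entries and on the value
of `g` on the entries from the `k`-th on -/
theorem cup_congr {k : ℕ} {f f' g g' : List X → A} {l : List X}
    (hf : ∀ m, m.Sublist l → m.length = k + 1 → f m = f' m)
    (hg : ∀ m, m.Sublist l → m.length + k = l.length → m ≠ [] → g m = g' m) :
    cup k f g l = cup k f' g' l := by
  induction k generalizing f f' l with
  | zero => cases l with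
    | nil => rfl
    | cons x l =>
      rw [cup_zero_cons, cup_zero_cons, hf [x] (by simp) rfl,
        hg (x :: l) (List.Sublist.refl _) rfl (by simp)]
  | succ k ih => cases l with
    | nil => rfl
    | cons x l =>
      exact ih (fun m hm hl => hf (x :: m) (hm.cons_cons x) (by simp [hl]))
        fun m hm hl h0 => hg m (hm.cons x) (by simp; omega) h0

end Ring

section Metric

variable [PseudoMetricSpace X] [PseudoMetricSpace Y]

/-- the list `l` has diameter `< ε` -/
def Sm (ε : ℝ) (l : List X) : Prop := ∀ x ∈ l, ∀ y ∈ l, dist x y < ε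

theorem Sm.mono {ε ε' : ℝ} {l : List X} (h : Sm ε l) (hε : ε ≤ ε') : Sm ε' l :=
  fun x hx y hy => (h x hx y hy).trans_le hε

theorem Sm.subset {ε : ℝ} {l m : List X} (h : Sm ε l) (hm : m ⊆ l) : Sm ε m :=
  fun x hx y hy => h x (hm hx) y (hm hy)

theorem Sm.sublist {ε : ℝ} {l m : List X} (h : Sm ε l) (hm : m.Sublist l) : Sm ε m :=
  h.subset hm.subset

/-- `f` vanishes on all sufficiently small lists of length `n` -/
def LZ [Zero A] (n : ℕ) (f : List X → A) : Prop :=
  ∃ ε > 0, ∀ l : List X, l.length = n → Sm ε l → f l = 0

theorem LZ.of_forall [Zero A] {n : ℕ} {f : List X → A} (h : ∀ l, l.length = n → f l = 0) :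
    LZ n f := ⟨1, one_pos, fun l hl _ => h l hl⟩

variable [AddCommGroup A]

theorem LZ.add {n : ℕ} {f g : List X → A} (hf : LZ n f) (hg : LZ n g) :
    LZ n fun l => f l + g l := by
  obtain ⟨ε, hε, h⟩ := hf
  obtain ⟨ε', hε', h'⟩ := hg
  exact ⟨min ε ε', lt_min hε hε', fun l hl hs => by
    simp only [h l hl (hs.mono (min_le_left _ _)), h' l hl (hs.mono (min_le_right _ _)), add_zero]⟩

theorem LZ.neg {n : ℕ} {f : List X → A} (hf : LZ n f) : LZ n fun l => - f l := by
  obtain ⟨ε, hε, h⟩ := hf
  exact ⟨ε, hε, fun l hl hs => by simp only [h l hl hs, neg_zero]⟩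

theorem LZ.sub {n : ℕ} {f g : List X → A} (hf : LZ n f) (hg : LZ n g) :
    LZ n fun l => f l - g l := by
  simpa only [sub_eq_add_neg] using hf.add hg.neg

theorem LZ.sum {ι : Type*} {s : Finset ι} {n : ℕ} {f : ι → List X → A}
    (hf : ∀ i ∈ s, LZ n (f i)) : LZ n fun l => ∑ i ∈ s, f i l := by
  classical
  induction s using Finset.induction_on with
  | empty => exact LZ.of_forall fun l _ => by simp
  | insert a s ha ih =>
    simp only [Finset.sum_insert ha]
    exact (hf a (by simp)).add (ih fun i hi => hf i (by simp [hi]))

theorem LZ.d {n : ℕ} {f : List X → A} (hf : LZ n f) : LZ (n + 1) (d f) := by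
  obtain ⟨ε, hε, h⟩ := hf
  exact ⟨ε, hε, fun l hl hs => d_eq_zero fun m hm hml => h m (by omega) (hs.sublist hm)⟩

theorem LZ.congr {n : ℕ} {f g : List X → A} (hf : LZ n f) (h : LZ n fun l => g l - f l) :
    LZ n g := by
  have := hf.add h
  simpa using this

/-- `f` (a cochain of `n` points) has germ support in `K`: a small list of length `n` on which `f`
does not vanish meets `K`.  (For `n = 0` this says `f [] = 0`.) -/
def SuppG (n : ℕ) (K : Set X) (f : List X → A) : Prop :=
  ∃ ε > 0, ∀ l : List X, l.length = n → Sm ε l → f l ≠ 0 → ∃ x ∈ l, x ∈ K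

/-- bounded (germ) support -/
def Bd (n : ℕ) (f : List X → A) : Prop :=
  ∃ K : Set X, Bornology.IsBounded K ∧ SuppG n K f

/-- compact (germ) support in `U` -/
def CS (U : Set X) (n : ℕ) (f : List X → A) : Prop :=
  ∃ K : Set X, IsCompact K ∧ K ⊆ U ∧ SuppG n K f

theorem SuppG.mono {n : ℕ} {K K' : Set X} {f : List X → A} (h : SuppG n K f)
    (hK : K ⊆ K') : SuppG n K' f := by
  obtain ⟨ε, hε, h⟩ := h
  exact ⟨ε, hε, fun l hl hs h0 => (h l hl hs h0).imp fun x hx => ⟨hx.1, hK hx.2⟩⟩

theorem SuppG.add {n : ℕ} {K K' : Set X} {f g : List X → A} (hf : SuppG n K f)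
    (hg : SuppG n K' g) : SuppG n (K ∪ K') fun l => f l + g l := by
  obtain ⟨ε, hε, h⟩ := hf
  obtain ⟨ε', hε', h'⟩ := hg
  refine ⟨min ε ε', lt_min hε hε', fun l hl hs h0 => ?_⟩
  by_cases hfl : f l = 0
  · have : g l ≠ 0 := fun hg0 => h0 (by simp only [hfl, hg0, add_zero])
    exact (h' l hl (hs.mono (min_le_right _ _)) this).imp fun x hx => ⟨hx.1, Or.inr hx.2⟩
  · exact (h l hl (hs.mono (min_le_left _ _)) hfl).imp fun x hx => ⟨hx.1, Or.inl hx.2⟩

theorem SuppG.neg {n : ℕ} {K : Set X} {f : List X → A} (hf : SuppG n K f) :
    SuppG n K fun l => - f l := by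
  obtain ⟨ε, hε, h⟩ := hf
  exact ⟨ε, hε, fun l hl hs h0 => h l hl hs fun h1 => h0 (by simp only [h1, neg_zero])⟩

theorem SuppG.sub {n : ℕ} {K K' : Set X} {f g : List X → A} (hf : SuppG n K f)
    (hg : SuppG n K' g) : SuppG n (K ∪ K') fun l => f l - g l := by
  simpa only [sub_eq_add_neg] using hf.add hg.neg

theorem Bd.add {n : ℕ} {f g : List X → A} (hf : Bd n f) (hg : Bd n g) :
    Bd n fun l => f l + g l := by
  obtain ⟨K, hK, h⟩ := hf
  obtain ⟨K', hK', h'⟩ := hg
  exact ⟨K ∪ K', hK.union hK', h.add h'⟩

theorem Bd.neg {n : ℕ} {f : List X → A} (hf : Bd n f) : Bd n fun l => - f l := by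
  obtain ⟨K, hK, h⟩ := hf
  exact ⟨K, hK, h.neg⟩

theorem Bd.sub {n : ℕ} {f g : List X → A} (hf : Bd n f) (hg : Bd n g) :
    Bd n fun l => f l - g l := by
  simpa only [sub_eq_add_neg] using hf.add hg.neg

theorem CS.add {U : Set X} {n : ℕ} {f g : List X → A} (hf : CS U n f) (hg : CS U n g) :
    CS U n fun l => f l + g l := by
  obtain ⟨K, hK, hU, h⟩ := hf
  obtain ⟨K', hK', hU', h'⟩ := hg
  exact ⟨K ∪ K', hK.union hK', Set.union_subset hU hU', h.add h'⟩

theorem CS.neg {U : Set X} {n : ℕ} {f : List X → A} (hf : CS U n f) :
    CS U n fun l => - f l := by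
  obtain ⟨K, hK, hU, h⟩ := hf
  exact ⟨K, hK, hU, h.neg⟩

theorem CS.sub {U : Set X} {n : ℕ} {f g : List X → A} (hf : CS U n f) (hg : CS U n g) :
    CS U n fun l => f l - g l := by
  simpa only [sub_eq_add_neg] using hf.add hg.neg

theorem CS.mono {U V : Set X} {n : ℕ} {f : List X → A} (hf : CS U n f) (h : U ⊆ V) :
    CS V n f := by
  obtain ⟨K, hK, hU, h'⟩ := hf
  exact ⟨K, hK, hU.trans h, h'⟩

end Metric

end Vale.Agent.P267.AS
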