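import Vale.Agent.P267.H53.ASChart

/-!
# P267, package UNI-AS: the four-dimensional case, in coordinates

`ChartPiece U c` : `U` is a relatively compact open subset of the uniform space `X` and
`c : Fin 4 → X → ℝ` are coordinates near its closure which map `U` onto a star-shaped
neighbourhood of `0`.

* `rhoU U c` : the integral generator (product of steps), `closed_rhoU`, `cs_rhoU`;
* `ChartPiece.exists_primitive_four`, `ChartPiece.exists_primitive_of_ne` : hypotheses (B4), (B3) of
  `H994.zigzag`;
* `chartPiece_of_chart` : a relatively compact open subset of a chart with convex image is a piece.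
-/

namespace Vale.Agent.P267.AS

open Filter Topology Uniformity
open Vale.Agent.P267

/-- the model `ℝ⁴` -/
abbrev Y4 := (((Unit × ℝ) × ℝ) × ℝ) × ℝ

/-- the identification of `ℝ⁴` with the model -/
def T4 : (Fin 4 → ℝ) ≃ₗ[ℝ] Y4 where
  toFun v := (((((), v 3), v 2), v 1), v 0)
  map_add' v w := rfl
  map_smul' s v := rfl
  invFun y := ![y.2, y.1.2, y.1.1.2, y.1.1.1.2]
  left_inv v := by
    funext i
    fin_cases i <;> rfl
  right_inv y := rfl

/-- the identification of `ℝ⁴` with the model -/
noncomputable def TL4 : (Fin 4 → ℝ) ≃L[ℝ] Y4 := T4.toContinuousLinearEquiv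

theorem TL4_apply (v : Fin 4 → ℝ) : TL4 v = (((((), v 3), v 2), v 1), v 0) := rfl

/-- the generator of the model -/
noncomputable def rho4 : List Y4 → ℤ := gen (gen (gen (gen fun _ => 1)))

theorem isBase_rho4 : IsBase Y4 4 rho4 := isBase_unit.prod.prod.prod.prod

theorem rho4_smul (s : ℝ) (hs : 0 < s) (l : List Y4) : rho4 (l.map fun x => s • x) = rho4 l :=
  gen_smul (gen_smul (gen_smul (gen_smul fun _ _ _ => rfl))) s hs l

/-- the integer valued step function -/
noncomputable def zInd {X : Type*} (c : X → ℝ) (x : X) : ℤ := if 0 < c x then 1 else 0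

theorem ind_eq_zInd {Z : Type*} (c : Z → ℝ) (z : Z) : ind {x | 0 < c x} [z] = zInd c z := by
  unfold zInd
  split_ifs with h
  · exact ind_cons_of_mem (S := {x | 0 < c x}) h []
  · exact ind_cons_of_notMem (S := {x | 0 < c x}) h []

theorem gen_cons_cons {Y : Type*} [PseudoMetricSpace Y] (ρ : List Y → ℤ) (x y : Y × ℝ)
    (l : List (Y × ℝ)) : gen ρ (x :: y :: l) =
      (zInd Prod.snd y - zInd Prod.snd x) * ρ ((y :: l).map Prod.fst) := by
  rw [gen, cup_one_d_ind, ind_eq_zInd, ind_eq_zInd]

theorem rho4_apply (y : Fin 5 → Fin 4 → ℝ) :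
    rho4 (List.ofFn fun i => TL4 (y i)) =
      ∏ i : Fin 4, (zInd (fun v : Fin 4 → ℝ => v i) (y i.succ)
        - zInd (fun v : Fin 4 → ℝ => v i) (y i.castSucc)) := by
  rw [Fin.prod_univ_four]
  simp only [List.ofFn_succ, List.ofFn_zero]
  unfold rho4
  simp only [gen_cons_cons, List.map_cons, List.map_nil, TL4_apply]
  simp only [zInd]
  simp only [Fin.succ_zero_eq_one, Fin.succ_one_eq_two, Fin.castSucc_zero, Fin.castSucc_one,
    mul_assoc, mul_one]
  rfl

variable {X : Type*}

open Classical in
/-- the integral generator of a piece -/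
noncomputable def rhoU (U : Set X) (c : Fin 4 → X → ℝ) : H994.Co X 4 := fun x =>
  if ∀ k, x k ∈ U then ∏ i : Fin 4, (zInd (c i) (x i.succ) - zInd (c i) (x i.castSucc)) else 0

theorem rhoU_eq (U : Set X) (c : Fin 4 → X → ℝ) :
    rhoU U c = Piece.pull U (fun x => TL4 fun i => c i x) 4 rho4 := by
  funext x
  by_cases hx : ∀ k, x k ∈ U
  · rw [Piece.pull_of_mem hx, rhoU, if_pos hx, rho4_apply (fun i j => c j (x i))]
    rfl
  · rw [Piece.pull_of_notMem (by push Not at hx; exact hx), rhoU, if_neg hx]

variable [UniformSpace X]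

/-- `U` is a relatively compact open subset of `X`, and `c` are coordinates near the closure of `U`
which map `U` onto a star-shaped neighbourhood of `0` -/
structure ChartPiece (U : Set X) (c : Fin 4 → X → ℝ) : Prop where
  isOpen : IsOpen U
  compact : IsCompact (closure U)
  cont : ∀ i, ContinuousOn (c i) (closure U)
  inj : Set.InjOn (fun x i => c i x) (closure U)
  isOpen_image : IsOpen ((fun x i => c i x) '' U)
  star : StarConvex ℝ 0 ((fun x i => c i x) '' U)
  zero_mem : (0 : Fin 4 → ℝ) ∈ (fun x i => c i x) '' U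

namespace ChartPiece

variable {U : Set X} {c : Fin 4 → X → ℝ}

theorem piece (h : ChartPiece U c) : Piece U (fun x => TL4 fun i => c i x) := by
  have e : (fun x => TL4 fun i => c i x) '' U = TL4 '' ((fun x i => c i x) '' U) := by
    rw [Set.image_image]
  refine ⟨h.isOpen, h.compact, ?_, ?_, ?_, ?_, ?_⟩
  · exact TL4.continuous.comp_continuousOn (continuousOn_pi.2 h.cont)
  · intro x hx y hy hxy
    exact h.inj hx hy (TL4.injective hxy)
  · rw [e]
    exact TL4.toHomeomorph.isOpenMap _ h.isOpen_image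
  · rw [e, starConvex_zero_iff]
    rintro _ ⟨v, hv, rfl⟩ a ha0 ha1
    exact ⟨a • v, starConvex_zero_iff.1 h.star hv ha0 ha1, TL4.map_smul a v⟩
  · rw [e]
    exact ⟨0, h.zero_mem, TL4.map_zero⟩

theorem closed_rhoU (h : ChartPiece U c) : H994.Closed (rhoU U c) := by
  rw [rhoU_eq]
  exact h.piece.closed_gen isBase_rho4 rho4_smul

theorem cs_rhoU (h : ChartPiece U c) : H994.CS U (rhoU U c) := by
  rw [rhoU_eq]
  exact h.piece.cs_gen isBase_rho4 rho4_smul

/-- the top degree: every compactly supported closed cochain is a multiple of the generator -/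
theorem exists_primitive_four (h : ChartPiece U c) (F : H994.Co X 4) (hc : H994.Closed F)
    (hs : H994.CS U F) :
    ∃ (k : ℤ) (G : H994.Co X 3), H994.CS U G ∧ H994.Eqv F (k • rhoU U c + H994.d G) := by
  obtain ⟨k, G, hG, -, h1⟩ := h.piece.exists_primitive isBase_rho4 rho4_smul F hc hs
  rw [← rhoU_eq] at h1
  exact ⟨k, G, hG, h1⟩

/-- all other positive degrees: compactly supported closed cochains are exact -/
theorem exists_primitive_of_ne (h : ChartPiece U c) {q : ℕ} (hq : q ≠ 3) (F : H994.Co X (q + 1))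
    (hc : H994.Closed F) (hs : H994.CS U F) :
    ∃ G : H994.Co X q, H994.CS U G ∧ H994.Eqv (H994.d G) F := by
  obtain ⟨k, G, hG, hk, h1⟩ := h.piece.exists_primitive isBase_rho4 rho4_smul F hc hs
  rw [hk (by omega), zero_smul, zero_add] at h1
  exact ⟨G, hG, h1.symm⟩

/-- (B3) of `H994.zigzag` -/
theorem B3 (h : ChartPiece U c) (S : H994.Co X 3) (hc : H994.Closed S) (hs : H994.CS U S) :
    ∃ τ : H994.Co X 2, H994.CS U τ ∧ H994.Eqv (H994.d τ) S :=
  h.exists_primitive_of_ne (by norm_num) S hc hs

/-- (B4) of `H994.zigzag` -/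
theorem B4 (h : ChartPiece U c) {M : Type*} [AddCommGroup M] (lam : H994.Co X 4 →+ M)
    (lam_eqv : ∀ F, H994.Eqv F 0 → lam F = 0) (lam_d : ∀ G : H994.Co X 3, lam (H994.d G) = 0)
    (hu : ∀ k : ℤ, k • lam (rhoU U c) = 0 → k = 0) (F : H994.Co X 4) (hc : H994.Closed F)
    (hs : H994.CS U F) (hF : lam F = 0) :
    ∃ σ : H994.Co X 3, H994.CS U σ ∧ H994.Eqv (H994.d σ) F := by
  obtain ⟨k, G, hG, h1⟩ := h.exists_primitive_four F hc hs
  have h2 : lam (F - (k • rhoU U c + H994.d G)) = 0 := by
    refine lam_eqv _ ?_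
    have := h1.sub (H994.Eqv.refl (k • rhoU U c + H994.d G))
    rwa [sub_self] at this
  rw [map_sub, map_add, lam_d, hF, map_zsmul, add_zero, zero_sub, neg_eq_zero] at h2
  rw [hu k h2, zero_smul, zero_add] at h1
  exact ⟨G, hG, h1.symm⟩

end ChartPiece

/-- a relatively compact open subset of a chart with convex image is a piece -/
theorem chartPiece_of_chart {E : Type*} [NormedAddCommGroup E] [NormedSpace ℝ E]
    (e : OpenPartialHomeomorph X E) (L : E ≃L[ℝ] (Fin 4 → ℝ)) {U : Set X} (hU : IsOpen U)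
    (hUc : IsCompact (closure U)) (hUe : closure U ⊆ e.source) (hconv : Convex ℝ (e '' U))
    {p : X} (hp : p ∈ U) : ChartPiece U fun i x => L (e x - e p) i := by
  have e1 : (fun x i => L (e x - e p) i) '' U = (fun v => L (v - e p)) '' (e '' U) := by
    rw [Set.image_image]
  have hc : Continuous fun v => L (v - e p) := by fun_prop
  refine ⟨hU, hUc, fun i => ?_, ?_, ?_, ?_, ⟨p, hp, by funext i; simp⟩⟩
  · have h1 : Continuous fun v => L (v - e p) i := (continuous_apply i).comp hc
    exact h1.comp_continuousOn (e.continuousOn.mono hUe)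
  · intro x hx y hy hxy
    have h1 : L (e x - e p) = L (e y - e p) := hxy
    have h2 := sub_left_injective (L.injective h1)
    exact e.injOn (hUe hx) (hUe hy) h2
  · rw [e1]
    have h2 : IsOpen (e '' U) := e.isOpen_image_of_subset_source hU (subset_closure.trans hUe)
    have h3 : (fun v => L (v - e p)) '' (e '' U) = ⇑((Homeomorph.subRight (e p)).trans
      L.toHomeomorph) '' (e '' U) := rfl
    rw [h3]
    exact ((Homeomorph.subRight (e p)).trans L.toHomeomorph).isOpenMap _ h2
  · rw [e1, starConvex_zero_iff]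
    rintro _ ⟨v, hv, rfl⟩ a ha0 ha1
    refine ⟨a • v + (1 - a) • e p, hconv hv ⟨p, hp, rfl⟩ ha0 (by linarith) (by ring), ?_⟩
    simp only
    rw [← map_smul]
    congr 1
    rw [smul_sub, sub_smul, one_smul]
    abel

end Vale.Agent.P267.AS
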