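import Vale.Agent.P267.H53.ASFour
import Vale.Agent.P267.H533.LamAdj

/-!
# P267, package UNIMOD: the functional `lam` of helper533 on the cochains of helper994

* `Fine V P` : the partition `P` is `V`-fine, `fineF A` : the filter of fine partitions;
* `lamGerm T : Co X 4 →+ Germ (fineF A) ℝ`, `lamGerm_eqv`, `lamGerm_d`;
* `ChartPiece.lam_rhoU` : the value of `lam` on the generator of a chart piece;
* `Good T U`, `zigzag_lam`.
-/

open scoped Topology Uniformity
open Filter Set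

namespace Vale.Agent.P267.AS

open Vale.Agent.P267 Vale.Agent.P267.H533

section cast

variable {X : Type*}

/-- an integral cochain as a real cochain -/
def toR {q : ℕ} (F : H994.Co X q) : (Fin (q + 1) → X) → ℝ := fun x => (F x : ℝ)

theorem toR_add {q : ℕ} (F G : H994.Co X q) : toR (F + G) = toR F + toR G := by
  funext x
  simp [toR]

theorem toR_zero {q : ℕ} : toR (0 : H994.Co X q) = 0 := by
  funext x
  simp [toR]

theorem toR_d {q : ℕ} (G : H994.Co X q) : toR (H994.d G) = dAS (toR G) := by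
  funext x
  simp [toR, H994.d, dAS]

theorem toR_rhoU (U : Set X) (c : Fin 4 → X → ℝ) :
    toR (rhoU U c) = trunc U (stepCochain fun i => posInd (c i)) := by
  funext x
  unfold toR rhoU trunc stepCochain zInd posInd
  split_ifs with h
  · push_cast
    rfl
  · simp

end cast

section fine

variable {X : Type*} [UniformSpace X] {A : Subalgebra ℝ (X → ℝ)}

/-- the partition `P` is `V`-fine -/
def Fine {ι : Type*} [Fintype ι] (V : Set (X × X)) (P : Part A ι) : Prop :=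
  ∀ a x, x ∈ tsupport (P.ψ a : X → ℝ) → (x, P.v a) ∈ V

theorem Fine.mono {ι : Type*} [Fintype ι] {V W : Set (X × X)} {P : Part A ι} (h : Fine V P)
    (hVW : V ⊆ W) : Fine W P := fun a x hx => hVW (h a x hx)

/-- the type of finite partitions -/
abbrev PartS (A : Subalgebra ℝ (X → ℝ)) := Σ n : ℕ, Part A (Fin n)

/-- the filter of fine partitions -/
def fineF (A : Subalgebra ℝ (X → ℝ)) : Filter (PartS A) :=
  (𝓤 X).lift' fun V => {P | Fine V P.2}

theorem eventually_fineF {p : PartS A → Prop} :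
    (∀ᶠ P in fineF A, p P) ↔ ∃ V ∈ 𝓤 X, ∀ P : PartS A, Fine V P.2 → p P := by
  unfold fineF
  rw [Filter.Eventually, mem_lift'_sets]
  · rfl
  · intro V W hVW P hP
    exact Fine.mono hP hVW

/-- adjacent vertices of a fine partition are close -/
theorem exists_adj {V : Set (X × X)} (hV : V ∈ 𝓤 X) : ∃ W ∈ 𝓤 X, ∀ {ι : Type*} [Fintype ι]
    (P : Part A ι), Fine W P → ∀ {q : ℕ} (a : Fin (q + 1) → ι), Adj P a →
      ∀ i j, (P.v (a i), P.v (a j)) ∈ V := by
  obtain ⟨W, hW, hWs, hWV⟩ := comp_symm_mem_uniformity_sets hV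
  refine ⟨W, hW, fun {ι} _ P hP q a ⟨x, hx⟩ i j => hWV ⟨x, ?_, hP _ _ (hx j)⟩⟩
  exact hWs.symm _ _ (hP _ _ (hx i))

variable (T : TopInt A)

/-- `lam` as a germ along the filter of fine partitions -/
noncomputable def lamGerm : H994.Co X 4 →+ Germ (fineF A) ℝ where
  toFun F := ((fun P => lam T P.2 (toR F) : PartS A → ℝ) : Germ (fineF A) ℝ)
  map_zero' := by
    have : (fun P : PartS A => lam T P.2 (toR (0 : H994.Co X 4))) = fun _ => 0 := by
      funext P
      rw [toR_zero]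
      have := lam_sub T P.2 (0 : (Fin 5 → X) → ℝ) 0
      rwa [sub_zero, sub_self] at this
    rw [this]
    rfl
  map_add' F G := by
    have : (fun P : PartS A => lam T P.2 (toR (F + G))) =
        (fun P : PartS A => lam T P.2 (toR F)) + fun P : PartS A => lam T P.2 (toR G) := by
      funext P
      rw [toR_add, lam_add]
      rfl
    rw [this]
    rfl

theorem lamGerm_apply (F : H994.Co X 4) :
    lamGerm T F = ((fun P => lam T P.2 (toR F) : PartS A → ℝ) : Germ (fineF A) ℝ) := rfl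

theorem lamGerm_eqv (F : H994.Co X 4) (hF : H994.Eqv F 0) : lamGerm T F = 0 := by
  rw [lamGerm_apply]
  refine Germ.coe_eq.2 ?_
  obtain ⟨V, hV, h⟩ := ev_sm.1 hF
  obtain ⟨W, hW, h1⟩ := exists_adj (A := A) hV
  refine eventually_fineF.2 ⟨W, hW, fun P hP => ?_⟩
  refine lam_eq_zero_adj T fun a ha => ?_
  have := h _ (h1 P.2 hP a ha)
  simp only [toR]
  rw [this]
  simp

theorem lamGerm_d (G : H994.Co X 3) : lamGerm T (H994.d G) = 0 := by
  rw [lamGerm_apply]
  refine Germ.coe_eq.2 (Eventually.of_forall fun P => ?_)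
  simp only
  rw [toR_d, lam_dAS]

theorem zsmul_one_germ [NeBot (fineF A)] (k : ℤ) (h : k • (1 : Germ (fineF A) ℝ) = 0) : k = 0 := by
  have h1 : ((fun _ => (k : ℝ) : PartS A → ℝ) : Germ (fineF A) ℝ) = ((fun _ => 0 : PartS A → ℝ) :
      Germ (fineF A) ℝ) := by
    have h2 : k • (1 : Germ (fineF A) ℝ) =
        ((k • (1 : PartS A → ℝ) : PartS A → ℝ) : Germ (fineF A) ℝ) := rfl
    rw [h2] at h
    have h3 : (k • (1 : PartS A → ℝ) : PartS A → ℝ) = fun _ => (k : ℝ) := by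
      funext P
      simp
    rw [h3] at h
    exact h
  obtain ⟨P, hP⟩ := (Germ.coe_eq.1 h1).exists
  have hP' : (k : ℝ) = 0 := hP
  exact_mod_cast hP'

end fine

section chart

variable {X : Type*} [UniformSpace X] {A : Subalgebra ℝ (X → ℝ)} (T : TopInt A)
  {U : Set X} {c : Fin 4 → X → ℝ}

/-- test data for a chart piece: a cut-off function and four step-like functions -/
structure Test (U : Set X) (c : Fin 4 → X → ℝ) (χ : A) (t : Fin 4 → A) (δ : ℝ) : Prop where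
  pos : 0 < δ
  supp : tsupport (χ : X → ℝ) ⊆ U
  one_zero : ∀ x ∈ U, (∀ i, c i x = 0) → ∀ᶠ y in 𝓝 x, (χ : X → ℝ) y = 1
  one : ∀ x ∈ tsupport (χ : X → ℝ), (∀ i, |c i x| < δ) → ∀ᶠ y in 𝓝 x, (χ : X → ℝ) y = 1
  step_one : ∀ i, ∀ x ∈ tsupport (χ : X → ℝ), δ ≤ c i x → ∀ᶠ y in 𝓝 x, (t i : X → ℝ) y = 1
  step_zero : ∀ i, ∀ x ∈ tsupport (χ : X → ℝ), c i x ≤ -δ → ∀ᶠ y in 𝓝 x, (t i : X → ℝ) y = 0

/-- **The value of `lam` on the generator of a chart piece.** -/
theorem ChartPiece.lam_rhoU (h : ChartPiece U c) {χ : A} {t : Fin 4 → A} {δ : ℝ}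
    (ht : Test U c χ t δ) :
    ∃ V ∈ 𝓤 X, ∀ (ι : Type) [Fintype ι] (P : Part A ι), Fine V P →
      lam T P (toR (rhoU U c)) = T.J χ (t 0) (t 1) (t 2) (t 3) := by
  have hδ := ht.pos
  -- uniform continuity of the coordinates
  have huc : ∀ ε > 0, ∃ V ∈ 𝓤 X, ∀ x ∈ U, ∀ y ∈ U, (x, y) ∈ V → ∀ i, |c i x - c i y| < ε := by
    intro ε hε
    have : ∀ i, ∃ V ∈ 𝓤 X, ∀ x ∈ U, ∀ y ∈ U, (x, y) ∈ V → |c i x - c i y| < ε := by
      intro i
      have h1 := h.compact.uniformContinuousOn_of_continuous (h.cont i)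
      have h2 := h1 (Metric.dist_mem_uniformity hε)
      rw [mem_map, mem_inf_principal] at h2
      exact ⟨_, h2, fun x hx y hy hxy => hxy ⟨subset_closure hx, subset_closure hy⟩⟩
    choose V hV hV' using this
    exact ⟨⋂ i, V i, iInter_mem.2 hV, fun x hx y hy hxy i => hV' i x hx y hy (mem_iInter.1 hxy i)⟩
  -- a small compact neighbourhood of the origin
  have hP := h.piece
  set W : Set X := interior {y | (χ : X → ℝ) y = 1} ∩ U with hW
  have hWo : IsOpen W := isOpen_interior.inter h.isOpen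
  have hW0 : {y | hP.inv y ∈ W} ∩ (fun x => TL4 fun i => c i x) '' U ∈ 𝓝 (0 : Y4) := by
    have h0 := hP.inv_mem hP.zero_mem
    have hc0 : ∀ i, c i (hP.inv 0) = 0 := by
      intro i
      have h1 : (TL4 fun i => c i (hP.inv 0)) = TL4 0 := by rw [map_zero]; exact h0.2
      exact congrFun (TL4.injective h1) i
    have h1 : hP.inv 0 ∈ W :=
      ⟨mem_interior_iff_mem_nhds.2 (ht.one_zero _ h0.1 hc0), h0.1⟩
    have h2 : ContinuousAt hP.inv 0 :=
      hP.continuousOn_inv.continuousAt (hP.isOpen_image.mem_nhds hP.zero_mem)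
    exact inter_mem (h2 (hWo.mem_nhds h1)) (hP.isOpen_image.mem_nhds hP.zero_mem)
  obtain ⟨r, hr0, hr⟩ := Metric.nhds_basis_closedBall.mem_iff.1 hW0
  set r' := min r (δ / 3) with hr'
  have hr'0 : 0 < r' := by positivity
  have hr'W : Metric.closedBall (0 : Y4) r' ⊆ {y | hP.inv y ∈ W} ∩
      (fun x => TL4 fun i => c i x) '' U :=
    (Metric.closedBall_subset_closedBall (min_le_left _ _)).trans hr
  have hr'r : Metric.closedBall (0 : Y4) r' ⊆ (fun x => TL4 fun i => c i x) '' U :=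
    hr'W.trans inter_subset_right
  set K₀ : Set X := hP.inv '' Metric.closedBall (0 : Y4) r' with hK₀
  have hK₀c : IsCompact K₀ :=
    (isCompact_closedBall _ _).image_of_continuousOn (hP.continuousOn_inv.mono hr'r)
  have hK₀W : K₀ ⊆ W := by
    rintro _ ⟨y, hy, rfl⟩
    exact (hr'W hy).1
  have hmemK₀ : ∀ x ∈ U, (∀ i, |c i x| ≤ r') → x ∈ K₀ := by
    intro x hx hc
    refine ⟨TL4 fun i => c i x, ?_, hP.inv_map hx⟩
    rw [mem_closedBall_zero_iff, TL4_apply]
    simp only [Prod.norm_def, Real.norm_eq_abs]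
    refine max_le (max_le (max_le (max_le ?_ (hc 3)) (hc 2)) (hc 1)) (hc 0)
    simpa using hr'0.le
  obtain ⟨V₁, hV₁, -, hV₁'⟩ := lebesgue_number_of_compact_open hK₀c hWo hK₀W
  have hKχ : IsCompact (tsupport (χ : X → ℝ)) :=
    h.compact.of_isClosed_subset (isClosed_tsupport _) (ht.supp.trans subset_closure)
  obtain ⟨V₂, hV₂, -, hV₂'⟩ := lebesgue_number_of_compact_open hKχ h.isOpen ht.supp
  obtain ⟨V₃, hV₃, hV₃'⟩ := huc r' hr'0
  obtain ⟨V₄, hV₄, hV₄s, hV₄'⟩ := comp_symm_mem_uniformity_sets hV₃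
  obtain ⟨V₅, hV₅, hV₅s, hV₅'⟩ := comp_symm_mem_uniformity_sets hV₁
  have h51 : V₅ ⊆ V₁ := (subset_comp_self_of_mem_uniformity hV₅).trans hV₅'
  have h43 : V₄ ⊆ V₃ := (subset_comp_self_of_mem_uniformity hV₄).trans hV₄'
  refine ⟨V₂ ∩ V₄ ∩ V₅, inter_mem (inter_mem hV₂ hV₄) hV₅, fun ι _ P hPf => ?_⟩
  rw [toR_rhoU]
  have hsm4 : ∀ {x : X} {a b : ι}, x ∈ tsupport (P.ψ a : X → ℝ) → x ∈ tsupport (P.ψ b : X → ℝ) →
      (P.v a, P.v b) ∈ V₃ := by
    intro x a b ha hb
    exact hV₄' ⟨x, hV₄s.symm _ _ (hPf a x ha).1.2, (hPf b x hb).1.2⟩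
  refine lam_trunc_step_adj T U (fun i => posInd (c i)) χ
    (fun i => {x | |c i x| < δ} ∩ tsupport (χ : X → ℝ)) t ?_ ?_ ?_ ?_
  · -- H1
    intro a haU hne x hx
    have hfac : ∀ i : Fin 4, posInd (c i) (P.v (a i.succ)) - posInd (c i) (P.v (a i.castSucc)) ≠ 0 := by
      intro i h0
      apply hne
      unfold stepCochain
      exact Finset.prod_eq_zero (Finset.mem_univ i) h0
    have hsmall : ∀ i : Fin 4, |c i (P.v (a 0))| ≤ r' := by
      intro i
      have hd1 := hV₃' _ (haU 0) _ (haU i.succ) (hsm4 (hx 0) (hx i.succ)) i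
      have hd2 := hV₃' _ (haU 0) _ (haU i.castSucc) (hsm4 (hx 0) (hx i.castSucc)) i
      have hs := hfac i
      unfold posInd at hs
      rw [abs_lt] at hd1 hd2
      rw [abs_le]
      by_cases hp1 : 0 < c i (P.v (a i.succ)) <;> by_cases hp2 : 0 < c i (P.v (a i.castSucc))
      · simp [hp1, hp2] at hs
      · constructor <;> linarith
      · constructor <;> linarith
      · simp [hp1, hp2] at hs
    have hv0 : P.v (a 0) ∈ K₀ := hmemK₀ _ (haU 0) hsmall
    have hxW : x ∈ W := hV₁' _ hv0 (h51 (hV₅s.symm _ _ (hPf _ x (hx 0)).2))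
    exact mem_interior_iff_mem_nhds.1 hxW.1
  · -- H2
    intro x hx a ha
    exact hV₂' x hx (hPf a x ha).1.1
  · -- H3
    intro x hx i hi
    have hxc : δ ≤ |c i x| := by
      by_contra hcon
      exact hi ⟨not_le.1 hcon, hx⟩
    have hclose : ∀ a, x ∈ tsupport (P.ψ a : X → ℝ) → |c i x - c i (P.v a)| < δ := by
      intro a ha
      have hvU : P.v a ∈ U := hV₂' x hx (hPf a x ha).1.1
      have h1 := hV₃' x (ht.supp hx) _ hvU (h43 (hPf _ x ha).1.2) i
      have h3 : r' ≤ δ / 3 := min_le_right _ _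
      linarith
    rcases le_abs.1 hxc with h1 | h1
    · refine ⟨1, ht.step_one i x hx h1, fun a ha => ?_⟩
      have := hclose a ha
      rw [abs_lt] at this
      unfold posInd
      rw [if_pos (by linarith)]
    · refine ⟨0, ht.step_zero i x hx (by linarith), fun a ha => ?_⟩
      have := hclose a ha
      rw [abs_lt] at this
      unfold posInd
      rw [if_neg (by linarith)]
  · -- H4
    intro x hx
    exact ⟨1, ht.one x (hx 0).2 (fun i => (hx i).1)⟩

/-- `U` is a chart piece on which the total integral of the generator is `1` -/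
def Good (T : TopInt A) (U : Set X) : Prop :=
  ∃ (c : Fin 4 → X → ℝ) (χ : A) (t : Fin 4 → A) (δ : ℝ), ChartPiece U c ∧ Test U c χ t δ ∧
    T.J χ (t 0) (t 1) (t 2) (t 3) = 1

theorem Good.lam {U : Set X} (h : Good T U) : ∃ c : Fin 4 → X → ℝ, ChartPiece U c ∧
    lamGerm T (rhoU U c) = 1 := by
  obtain ⟨c, χ, t, δ, h1, h2, h3⟩ := h
  refine ⟨c, h1, ?_⟩
  rw [lamGerm_apply]
  refine Germ.coe_eq.2 ?_
  obtain ⟨V, hV, h4⟩ := h1.lam_rhoU T h2
  refine eventually_fineF.2 ⟨V, hV, fun P hP => ?_⟩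
  exact (h4 _ P.2 hP).trans h3

/-- **the dual cocycle of an integral nerve cycle** -/
theorem zigzag_lam [NeBot (fineF A)] {ι : Type*} [Fintype ι] (U : ι → Set X)
    (hU : ∀ i, IsOpen (U i))
    (G1 : ∀ k, (U k).Nonempty → Good T (U k))
    (G2 : ∀ j k, (U j ∩ U k).Nonempty → Good T (U j ∩ U k))
    (G3 : ∀ i j k, (U i ∩ U j ∩ U k).Nonempty → Good T (U i ∩ U j ∩ U k))
    (z : ι → ι → ι → ℤ) (hz0 : ∀ i j k, ¬ (U i ∩ U j ∩ U k).Nonempty → z i j k = 0)
    (hz : ∀ j k, ∑ i, (z i j k - z j i k + z j k i) = 0) :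
    ∃ ζ : H994.Co X 2, H994.Closed ζ ∧ H994.CS (⋃ i, U i) ζ ∧
      ∀ (f : H994.Co X 2) (a : ι → H994.Co X 1) (b : ι → ι → H994.Co X 0) (n : ι → ι → ι → ℤ),
      (∀ k, ∀ᶠ x in H994.sm 3, (∀ m, x m ∈ U k) → H994.d (a k) x = f x) →
      (∀ j k, ∀ᶠ x in H994.sm 2, (∀ m, x m ∈ U j ∩ U k) → H994.d (b j k) x = a k x - a j x) →
      (∀ i j k, ∀ x, (∀ m, x m ∈ U i ∩ U j ∩ U k) → b j k x - b i k x + b i j x = n i j k) →
      ∀ᶠ P in fineF A, lam T P.2 (toR (H994.cup rfl f ζ)) =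
        -((∑ i, ∑ j, ∑ k, z i j k * n i j k : ℤ) : ℝ) := by
  classical
  have h3 : ∀ i j k, ∃ ρ : H994.Co X 4, (U i ∩ U j ∩ U k).Nonempty →
      (H994.Closed ρ ∧ H994.CS (U i ∩ U j ∩ U k) ρ ∧ lamGerm T ρ = 1) := by
    intro i j k
    by_cases hne : (U i ∩ U j ∩ U k).Nonempty
    · obtain ⟨c, hc, hl⟩ := (G3 i j k hne).lam T
      exact ⟨rhoU _ c, fun _ => ⟨hc.closed_rhoU, hc.cs_rhoU, hl⟩⟩
    · exact ⟨0, fun h => (hne h).elim⟩
  choose ρ hρ using h3
  obtain ⟨ζ, hζ, hζs, hζl⟩ := H994.zigzag U hU (lamGerm T) (lamGerm_eqv T) (lamGerm_d T) 1 ρ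
    (fun i j k h => (hρ i j k h).1) (fun i j k h => (hρ i j k h).2.1)
    (fun i j k h => (hρ i j k h).2.2)
    (fun j k hne F hF hFs hFl => by
      obtain ⟨c, hc, hl⟩ := (G2 j k hne).lam T
      exact hc.B4 (lamGerm T) (lamGerm_eqv T) (lamGerm_d T)
        (fun k hk => zsmul_one_germ k (by rwa [hl] at hk)) F hF hFs hFl)
    (fun k hne S hS hSs => by
      obtain ⟨c, hc, -⟩ := (G1 k hne).lam T
      exact hc.B3 S hS hSs) z hz0 hz
  refine ⟨ζ, hζ, hζs, fun f a b n ha hb hn => ?_⟩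
  have h1 := hζl f a b n ha hb hn
  rw [lamGerm_apply] at h1
  set N : ℤ := ∑ i, ∑ j, ∑ k, z i j k * n i j k with hN
  have h2 : -(N • (1 : Germ (fineF A) ℝ)) =
      ((fun _ => -(N : ℝ) : PartS A → ℝ) : Germ (fineF A) ℝ) := by
    have h4 : -(N • (1 : Germ (fineF A) ℝ)) =
        ((-(N • (1 : PartS A → ℝ)) : PartS A → ℝ) : Germ (fineF A) ℝ) := rfl
    rw [h4]
    congr 1
    funext P
    simp
  rw [h2] at h1
  exact Germ.coe_eq.1 h1

end chart

end Vale.Agent.P267.AS
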