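import Vale.Agent.P267.H53.ASBase

/-!
# P267, package UNI-AS: compact supports in star-shaped open sets

`IsBase.scale` : if `IsBase Y n ρ` and `ρ` is invariant under scaling, then in every star-shaped
neighbourhood `Ω` of `0` a closed cochain with compact support in `Ω` is `c ρ + d g` with `g`
compactly supported in `Ω`.
-/

namespace Vale.Agent.P267.AS

open Bornology Topology

variable {X Y : Type*}

section Scale

variable [NormedAddCommGroup Y] [NormedSpace ℝ Y]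

/-- scaling by `1 + s` -/
def sc (s : ℝ) (x : Y) : Y := (1 + s) • x

theorem sc_zero : sc (Y := Y) 0 = id := by
  funext x
  simp [sc]

theorem dist_sc_sc (s s' : ℝ) (hs : 0 ≤ s) (x x' : Y) :
    dist (sc s x) (sc s' x') ≤ (1 + s) * dist x x' + |s - s'| * ‖x'‖ := by
  have h : sc s x - sc s' x' = (1 + s) • (x - x') + (s - s') • x' := by
    simp only [sc, smul_sub, sub_smul, add_smul, one_smul]
    abel
  rw [dist_eq_norm, h, dist_eq_norm]
  refine (norm_add_le _ _).trans (le_of_eq ?_)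
  rw [norm_smul, norm_smul, Real.norm_eq_abs, Real.norm_eq_abs, abs_of_nonneg (by linarith)]

/-- the sum of the first `N` prisms -/
def ssl (N : ℕ) (η : ℝ) (f : List Y → ℤ) (l : List Y) : ℤ :=
  ∑ k ∈ Finset.range N, prism (sc (k * η)) (sc ((k + 1 : ℕ) * η)) f l

theorem d_ssl (N : ℕ) (η : ℝ) (f : List Y → ℤ) (l : List Y) :
    d (ssl N η f) l + ssl N η (d f) l = f (l.map (sc (N * η))) - f l := by
  have e : d (ssl N η f) l = ∑ k ∈ Finset.range N,
      d (prism (sc (k * η)) (sc ((k + 1 : ℕ) * η)) f) l := d_sum_apply _ _ _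
  rw [e, ssl, ← Finset.sum_add_distrib]
  have : ∀ k ∈ Finset.range N, d (prism (sc (k * η)) (sc ((k + 1 : ℕ) * η)) f) l +
      prism (sc (k * η)) (sc ((k + 1 : ℕ) * η)) (d f) l =
      (fun k : ℕ => f (l.map (sc (k * η)))) (k + 1) - (fun k : ℕ => f (l.map (sc (k * η)))) k :=
    fun k _ => d_prism _ _ _ _
  rw [Finset.sum_congr rfl this, Finset.sum_range_sub (fun k : ℕ => f (l.map (sc (k * η))))]
  simp [sc_zero]

theorem dist_self_sc_le {x y : Y} {s : ℝ} (hs : 0 ≤ s) :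
    dist (sc s x) (sc s y) = (1 + s) * dist x y := by
  have h : sc s x - sc s y = (1 + s) • (x - y) := by simp only [sc, smul_sub]
  rw [dist_eq_norm, h, norm_smul, Real.norm_eq_abs, abs_of_nonneg (by linarith), dist_eq_norm]

theorem norm_le_norm_sc {x : Y} {s : ℝ} (hs : 0 ≤ s) : ‖x‖ ≤ ‖sc s x‖ := by
  rw [sc, norm_smul, Real.norm_eq_abs, abs_of_nonneg (by linarith)]
  nlinarith [norm_nonneg x]

/-- **Scaling**: compactly supported cohomology of a star-shaped neighbourhood of `0`. -/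
theorem IsBase.scale [ProperSpace Y] {n : ℕ} {ρ : List Y → ℤ} (hb : IsBase Y n ρ)
    (hρ : ∀ s : ℝ, 0 < s → ∀ l : List Y, ρ (l.map fun x => s • x) = ρ l) {Ω : Set Y}
    (hΩ : StarConvex ℝ 0 Ω) (hΩ0 : Ω ∈ 𝓝 (0 : Y)) (q : ℕ) (f : List Y → ℤ)
    (hf : CS Ω (q + 1) f) (hc : LZ (q + 2) (d f)) :
    ∃ (c : ℤ) (g : List Y → ℤ), CS Ω q g ∧ (q ≠ n → c = 0) ∧
      LZ (q + 1) fun l => f l - c * ρ l - d g l := by
  obtain ⟨K, hK, hKΩ, hfs⟩ := hf
  obtain ⟨c, g, ⟨Kg, hKg, hgs⟩, hcn, hfg⟩ := hb.2.2 q f ⟨K, hK.isBounded, hfs⟩ hc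
  obtain ⟨ε₁, hε₁, hsupp⟩ := hfs
  obtain ⟨ε₂, hε₂, hcl⟩ := hc
  obtain ⟨ε₃, hε₃, hgs⟩ := hgs
  obtain ⟨ε₄, hε₄, hfg⟩ := hfg
  -- the scalar
  obtain ⟨r, hr0, hr⟩ := Metric.nhds_basis_closedBall.mem_iff.1 hΩ0
  obtain ⟨R, hR0, hR⟩ : ∃ R > 0, ∀ x ∈ Kg, ‖x‖ ≤ R := by
    obtain ⟨R, hR⟩ := hKg.exists_norm_le
    exact ⟨max R 1, by positivity, fun x hx => (hR x hx).trans (le_max_left _ _)⟩
  obtain ⟨R', hR'0, hR'⟩ : ∃ R > 0, ∀ x ∈ K, ‖x‖ ≤ R := by
    obtain ⟨R, hR⟩ := hK.isBounded.exists_norm_le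
    exact ⟨max R 1, by positivity, fun x hx => (hR x hx).trans (le_max_left _ _)⟩
  obtain ⟨ε, hε0, hε1, hεε₁, hεε₂⟩ : ∃ ε : ℝ, 0 < ε ∧ ε ≤ 1 ∧ ε ≤ ε₁ ∧ ε ≤ ε₂ :=
    ⟨min 1 (min ε₁ ε₂), by positivity, min_le_left _ _,
      (min_le_right _ _).trans (min_le_left _ _), (min_le_right _ _).trans (min_le_right _ _)⟩
  replace hsupp : ∀ l : List Y, l.length = q + 1 → Sm ε l → f l ≠ 0 → ∃ x ∈ l, x ∈ K :=
    fun l hl hs => hsupp l hl (hs.mono hεε₁)
  replace hcl : ∀ l : List Y, l.length = q + 2 → Sm ε l → d f l = 0 :=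
    fun l hl hs => hcl l hl (hs.mono hεε₂)
  clear hε₁ hε₂ hεε₁ hεε₂ ε₁ ε₂
  set s : ℝ := R / r with hs
  have hs0 : 0 < s := by positivity
  -- truncation
  classical
  set F : List Y → ℤ := fun l => if ∀ x ∈ l, ‖x‖ ≤ R' + 1 then f l else 0 with hF
  have hF0 : ∀ l, F l ≠ 0 → ∀ x ∈ l, ‖x‖ ≤ R' + 1 := by
    intro l h0
    by_contra hcon
    exact h0 (by simp only [hF]; rw [if_neg hcon])
  have hFf : ∀ l : List Y, l.length = q + 1 → Sm ε l → F l = f l := by
    intro l hl hs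
    simp only [hF]
    split_ifs with h
    · rfl
    · by_contra h0
      obtain ⟨x, hx, hxK⟩ := hsupp l hl hs (Ne.symm h0)
      apply h
      intro y hy
      calc ‖y‖ = ‖x + (y - x)‖ := by congr 1; abel
        _ ≤ ‖x‖ + ‖y - x‖ := norm_add_le _ _
        _ ≤ R' + 1 := add_le_add (hR' x hxK) (by
          rw [← dist_eq_norm]; exact ((hs y hy x hx).trans_le hε1).le)
  have hFs : ∀ l : List Y, l.length = q + 1 → Sm ε l → F l ≠ 0 → ∃ x ∈ l, x ∈ K :=
    fun l hl hs h0 => hsupp l hl hs (by rwa [hFf l hl hs] at h0)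
  have hFc : ∀ l : List Y, l.length = q + 2 → Sm ε l → d F l = 0 := fun l hl hs => by
    rw [← hcl l hl hs]
    exact d_congr fun m hm hml => hFf m (by omega) (hs.sublist hm)
  obtain ⟨N, hN0, hN⟩ : ∃ N : ℕ, 0 < N ∧ s * (R' + 2) < N * (ε / 2) := by
    obtain ⟨N, hN⟩ := exists_nat_gt (s * (R' + 2) / (ε / 2))
    refine ⟨N, ?_, by rwa [div_lt_iff₀ (by positivity)] at hN⟩
    have : (0 : ℝ) < N := lt_of_le_of_lt (by positivity) hN
    exact_mod_cast this
  have hN0' : (0 : ℝ) < N := by exact_mod_cast hN0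
  set η : ℝ := s / N with hη
  have hη0 : 0 < η := by positivity
  have hNη : N * η = s := by rw [hη]; field_simp
  have hηR : η * (R' + 2) < ε / 2 := by
    rw [hη, div_mul_eq_mul_div, div_lt_iff₀ hN0']
    linarith
  have hkη : ∀ k : ℕ, k ≤ N → 0 ≤ (k : ℝ) * η ∧ (k : ℝ) * η ≤ s := by
    intro k hk
    refine ⟨by positivity, ?_⟩
    rw [← hNη]
    exact mul_le_mul_of_nonneg_right (by exact_mod_cast hk) hη0.le
  set ε' : ℝ := ε / 2 / (1 + s) with hε'
  have hε'0 : 0 < ε' := by positivity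
  have hε'ε : ε' ≤ ε / 2 := by
    rw [hε', div_le_iff₀ (by positivity)]
    nlinarith
  have hmul : (1 + s) * ε' = ε / 2 := by rw [hε']; field_simp
  have hstep : ∀ (k : ℕ) (l : List Y) (m : List Y), k < N → Sm ε' l → (∀ x ∈ l, ‖x‖ ≤ R' + 2) →
      (∀ y ∈ m, ∃ x ∈ l, y = sc (k * η) x ∨ y = sc ((k + 1 : ℕ) * η) x) → Sm ε m := by
    intro k l m hk hs hl hm
    have h1 : ∀ k : ℕ, k ≤ N → ∀ x ∈ l, ∀ y ∈ l, dist (sc (k * η) x) (sc (k * η) y) < ε / 2 := by
      intro k hk x hx y hy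
      rw [dist_self_sc_le (hkη k hk).1, ← hmul]
      have h3 := (hkη k hk).2
      have h4 := (hkη k hk).1
      calc (1 + k * η) * dist x y ≤ (1 + s) * dist x y :=
            mul_le_mul_of_nonneg_right (by linarith) dist_nonneg
        _ < (1 + s) * ε' := by
            have := hs x hx y hy
            have h5 : 0 < 1 + s := by linarith
            exact mul_lt_mul_of_pos_left this h5
    refine sm_of_mem hm (fun x hx y hy => ?_) (fun x hx y hy => ?_) (fun x hx y hy => ?_)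
    · linarith [h1 k hk.le x hx y hy]
    · linarith [h1 (k + 1) hk x hx y hy]
    · refine (dist_triangle _ (sc (k * η) y) _).trans_lt ?_
      have h2 : dist (sc ((k : ℝ) * η) y) (sc ((k + 1 : ℕ) * η) y) ≤ η * (R' + 2) := by
        refine (dist_sc_sc _ _ (hkη k hk.le).1 _ _).trans ?_
        rw [dist_self, mul_zero, zero_add]
        rw [show (k : ℝ) * η - ((k + 1 : ℕ) : ℝ) * η = -η by push_cast; ring, abs_neg,
          abs_of_pos hη0]
        exact mul_le_mul_of_nonneg_left (hl y hy) hη0.le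
      linarith [h1 k hk.le x hx y hy]
  -- a list with a small image has bounded norm
  have hnorm : ∀ (k : ℕ) (l : List Y) (y : Y), k < N → Sm ε' l → ‖y‖ ≤ R' + 1 →
      (∃ x ∈ l, y = sc (k * η) x ∨ y = sc ((k + 1 : ℕ) * η) x) → ∀ x ∈ l, ‖x‖ ≤ R' + 2 := by
    rintro k l y hk hs hy ⟨x, hx, h⟩ z hz
    have hx1 : ‖x‖ ≤ R' + 1 := by
      rcases h with rfl | rfl
      · exact (norm_le_norm_sc (hkη k hk.le).1).trans hy
      · exact (norm_le_norm_sc (hkη (k + 1) hk).1).trans hy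
    calc ‖z‖ = ‖x + (z - x)‖ := by congr 1; abel
      _ ≤ ‖x‖ + ‖z - x‖ := norm_add_le _ _
      _ ≤ (R' + 1) + 1 := add_le_add hx1 (by
        rw [← dist_eq_norm]
        have := hs z hz x hx
        linarith)
      _ = R' + 2 := by ring
  -- prisms of closed cochains
  have hprc : ∀ l : List Y, l.length = q + 1 → Sm ε' l → ssl N η (d F) l = 0 := by
    intro l hl hs
    refine Finset.sum_eq_zero fun k hk => prism_eq_zero fun m hm hm2 _ => ?_
    have hkN : k < N := Finset.mem_range.1 hk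
    by_cases h0 : ∀ m', m'.Sublist m → m'.length + 1 = m.length → F m' = 0
    · exact d_eq_zero h0
    · push Not at h0
      obtain ⟨m', hm', hml', h0⟩ := h0
      obtain ⟨y, hy⟩ : ∃ y, y ∈ m' := List.exists_mem_of_length_pos (by omega)
      exact hFc m (by omega) (hstep k l m hkN hs
        (hnorm k l y hkN hs (hF0 m' h0 y hy) (hm2 y (hm'.subset hy))) hm2)
  set H : List Y → ℤ := ssl N η F with hH
  -- the support of `H`
  set K' : Set Y := (fun p : ℝ × Y => p.1 • p.2) '' (Set.Icc 0 1 ×ˢ K) with hK'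
  have hK'c : IsCompact K' := (isCompact_Icc.prod hK).image (by fun_prop)
  have hK'Ω : K' ⊆ Ω := by
    rintro _ ⟨⟨a, x⟩, ⟨ha, hx⟩, rfl⟩
    exact starConvex_zero_iff.1 hΩ (hKΩ hx) ha.1 ha.2
  have hHs : ∀ l : List Y, l.length = q → Sm ε' l → H l ≠ 0 → ∃ x ∈ l, x ∈ K' := by
    intro l hl hs h0
    obtain ⟨k, hk, hk0⟩ := Finset.exists_ne_zero_of_sum_ne_zero h0
    have hkN : k < N := Finset.mem_range.1 hk
    by_contra hcon
    apply hk0
    refine prism_eq_zero fun m hm hm2 _ => ?_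
    by_contra hm0
    have hm1 : Sm ε m := by
      obtain ⟨y, hy⟩ : ∃ y, y ∈ m := List.exists_mem_of_length_pos (by omega)
      exact hstep k l m hkN hs (hnorm k l y hkN hs (hF0 m hm0 y hy) (hm2 y hy)) hm2
    obtain ⟨y, hy, hyK⟩ := hFs m (by omega) hm1 hm0
    obtain ⟨x, hx, h⟩ := hm2 y hy
    apply hcon
    refine ⟨x, hx, ?_⟩
    have key : ∀ a : ℝ, 0 ≤ a → sc a x ∈ K → x ∈ K' := by
      intro a ha h
      refine ⟨((1 + a)⁻¹, sc a x), ⟨⟨by positivity, ?_⟩, h⟩, ?_⟩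
      · exact inv_le_one_of_one_le₀ (by linarith)
      · simp only [sc]
        rw [smul_smul, inv_mul_cancel₀ (by positivity), one_smul]
    rcases h with rfl | rfl
    · exact key _ (hkη k hkN.le).1 hyK
    · exact key _ (hkη (k + 1) hkN).1 hyK
  -- the scaled primitive
  set G : List Y → ℤ := fun l => g (l.map (sc s)) with hG
  have hGs : ∀ l : List Y, l.length = q → Sm (ε₃ / (1 + s)) l → G l ≠ 0 →
      ∃ x ∈ l, x ∈ Metric.closedBall (0 : Y) r := by
    intro l hl hs' h0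
    obtain ⟨y, hy, hyK⟩ := hgs (l.map (sc s)) (by simpa using hl) (by
      intro a' ha' b' hb'
      obtain ⟨a, ha, rfl⟩ := List.mem_map.1 ha'
      obtain ⟨b, hb, rfl⟩ := List.mem_map.1 hb'
      rw [dist_self_sc_le hs0.le]
      have := hs' a ha b hb
      rw [lt_div_iff₀ (by positivity)] at this
      linarith) h0
    obtain ⟨x, hx, rfl⟩ := List.mem_map.1 hy
    refine ⟨x, hx, ?_⟩
    rw [mem_closedBall_zero_iff]
    have h1 := hR _ hyK
    rw [sc, norm_smul, Real.norm_eq_abs, abs_of_nonneg (by linarith)] at h1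
    have h2 : s * ‖x‖ ≤ R := by nlinarith [norm_nonneg x]
    rw [hs, div_mul_eq_mul_div, div_le_iff₀ hr0] at h2
    exact le_of_mul_le_mul_left h2 hR0
  refine ⟨c, fun l => G l - H l, ?_, hcn, ?_⟩
  · refine ⟨Metric.closedBall 0 r ∪ K', (isCompact_closedBall _ _).union hK'c,
      Set.union_subset hr hK'Ω, ?_⟩
    exact SuppG.sub ⟨ε₃ / (1 + s), by positivity, hGs⟩ ⟨ε', hε'0, hHs⟩
  · refine ⟨min ε' (ε₄ / (1 + s)), by positivity, fun l hl hs' => ?_⟩
    have hs1 : Sm ε' l := hs'.mono (min_le_left _ _)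
    have e1 : d (fun m => G m - H m) l = d G l - d H l := d_sub_apply _ _ _
    have e2 : d G l = d g (l.map (sc s)) := d_map _ _ _
    have e3 := d_ssl N η F l
    rw [hprc l hl hs1, add_zero, hNη] at e3
    have hsm : ∀ {ε₅ : ℝ}, 0 < ε₅ → Sm (ε₅ / (1 + s)) l → Sm ε₅ (l.map (sc s)) := by
      intro ε₅ _ hs'
      intro a' ha' b' hb'
      obtain ⟨a, ha, rfl⟩ := List.mem_map.1 ha'
      obtain ⟨b, hb, rfl⟩ := List.mem_map.1 hb'
      rw [dist_self_sc_le hs0.le]
      have := hs' a ha b hb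
      rw [lt_div_iff₀ (by positivity)] at this
      linarith
    have e4 := hfg (l.map (sc s)) (by simpa using hl) (hsm hε₄ (hs'.mono (min_le_right _ _)))
    have e5 : ρ (l.map (sc s)) = ρ l := hρ (1 + s) (by positivity) l
    have e6 : F (l.map (sc s)) = f (l.map (sc s)) := by
      refine hFf _ (by simpa using hl) (hsm hε0 (hs1.mono ?_))
      rw [hε']
      exact div_le_div_of_nonneg_right (by linarith) (by positivity)
    have e7 : F l = f l := hFf l hl (hs1.mono (by linarith))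
    simp only at e4
    rw [e5] at e4
    rw [e6, e7] at e3
    show f l - c * ρ l - d (fun m => G m - H m) l = 0
    rw [e1, e2, hH, e3]
    linarith

/-- the generator is supported in every neighbourhood of the origin -/
theorem IsBase.supp_gen [ProperSpace Y] {n : ℕ} {ρ : List Y → ℤ} (hb : IsBase Y n ρ)
    (hρ : ∀ s : ℝ, 0 < s → ∀ l : List Y, ρ (l.map fun x => s • x) = ρ l) {Ω : Set Y}
    (hΩ0 : Ω ∈ 𝓝 (0 : Y)) : CS Ω (n + 1) ρ := by
  obtain ⟨⟨K, hK, ε, hε, h⟩, -, -⟩ := hb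
  obtain ⟨r, hr0, hr⟩ := Metric.nhds_basis_closedBall.mem_iff.1 hΩ0
  obtain ⟨R, hR0, hR⟩ : ∃ R > 0, ∀ x ∈ K, ‖x‖ ≤ R := by
    obtain ⟨R, hR⟩ := hK.exists_norm_le
    exact ⟨max R 1, by positivity, fun x hx => (hR x hx).trans (le_max_left _ _)⟩
  refine ⟨Metric.closedBall 0 r, isCompact_closedBall _ _, hr, ε / (R / r), by positivity,
    fun l hl hs h0 => ?_⟩
  have hs0 : 0 < R / r := by positivity
  rw [← hρ (R / r) hs0 l] at h0
  obtain ⟨y, hy, hyK⟩ := h _ (by simpa using hl) (by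
      intro a' ha' b' hb'
      obtain ⟨a, ha, rfl⟩ := List.mem_map.1 ha'
      obtain ⟨b, hb, rfl⟩ := List.mem_map.1 hb'
      rw [dist_smul₀, Real.norm_eq_abs, abs_of_pos hs0]
      have := hs a ha b hb
      rw [lt_div_iff₀ (by positivity)] at this
      linarith) h0
  obtain ⟨x, hx, rfl⟩ := List.mem_map.1 hy
  refine ⟨x, hx, ?_⟩
  rw [mem_closedBall_zero_iff]
  have h1 := hR _ hyK
  rw [norm_smul, Real.norm_eq_abs, abs_of_pos hs0, div_mul_eq_mul_div, div_le_iff₀ hr0] at h1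
  exact le_of_mul_le_mul_left h1 hR0

end Scale

section GenScale

variable [NormedAddCommGroup Y] [NormedSpace ℝ Y]

theorem gen_smul {ρ : List Y → ℤ}
    (hρ : ∀ s : ℝ, 0 < s → ∀ l : List Y, ρ (l.map fun x => s • x) = ρ l) (s : ℝ) (hs : 0 < s)
    (l : List (Y × ℝ)) : gen ρ (l.map fun x => s • x) = gen ρ l := by
  rw [gen, ← cup_map]
  have e1 : (fun m : List (Y × ℝ) => d (ind {x : Y × ℝ | 0 < x.2}) (m.map fun x => s • x)) =
      d (ind {x : Y × ℝ | 0 < x.2}) := by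
    funext m
    rw [← d_map]
    congr 1
    funext m
    cases m with
    | nil => rfl
    | cons x m =>
      rw [List.map_cons]
      by_cases hx : 0 < x.2
      · rw [ind_cons_of_mem (S := {x : Y × ℝ | 0 < x.2}) hx,
          ind_cons_of_mem (S := {x : Y × ℝ | 0 < x.2}) (by
            simp only [Set.mem_ofPred_eq, Prod.smul_snd, smul_eq_mul]; positivity)]
      · rw [ind_cons_of_notMem (S := {x : Y × ℝ | 0 < x.2}) hx,
          ind_cons_of_notMem (S := {x : Y × ℝ | 0 < x.2}) (by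
            simp only [Set.mem_ofPred_eq, Prod.smul_snd, smul_eq_mul]
            push Not at hx ⊢
            exact mul_nonpos_of_nonneg_of_nonpos hs.le hx)]
  have e2 : (fun m : List (Y × ℝ) => ρ ((m.map fun x => s • x).map Prod.fst)) =
      fun m => ρ (m.map Prod.fst) := by
    funext m
    rw [← hρ s hs (m.map Prod.fst), List.map_map, List.map_map]
    rfl
  rw [e1, e2]

end GenScale

end Vale.Agent.P267.AS
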