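import Vale.Agent.P267.H53.ASLam
import Vale.Agent.P267.H533.InstChart

/-!
# P267, package UNIMOD: relatively compact chart-convex sets are good

`good_TI` : for a chart `e` of the atlas, an open set `U` with compact closure in the source of `e`
and convex image is `Good (TI X) U`.
-/

open scoped Topology Uniformity Manifold ContDiff
open Filter Set

noncomputable section

namespace Vale.Agent.P267.AS

open Vale.Agent.P267 Vale.Agent.P267.H533 Vale.Agent.P267.FL

/-- real coordinates of `ℂ²` -/
def crE : C2 ≃L[ℝ] (Fin 4 → ℝ) :=
  LinearEquiv.toContinuousLinearEquiv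
    { toFun := fun z k => cr k z
      map_add' := fun z w => by funext k; simp
      map_smul' := fun r z => by funext k; simp
      invFun := fun v => ![⟨v 0, v 1⟩, ⟨v 2, v 3⟩]
      left_inv := fun z => by
        funext i
        fin_cases i <;> apply Complex.ext <;> rfl
      right_inv := fun v => by
        funext k
        fin_cases k <;> rfl }

theorem crE_apply (z : C2) (k : Fin 4) : crE z k = cr k z := rfl

variable {X : Type*} [UniformSpace X] [T2Space X] [ChartedSpace C2 X] [IsManifold 𝓘(ℂ, C2) ω X]

theorem good_TI {e : Ch X} (he : e ∈ atlas C2 X) {U : Set X} (hU : IsOpen U)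
    (hne : U.Nonempty) (hUc : IsCompact (closure U)) (hUe : closure U ⊆ e.source)
    (hconv : Convex ℝ (e '' U)) : Good (TI X) U := by
  obtain ⟨p, hp⟩ := hne
  obtain ⟨χ, t, δ, h1, h2, -, h4, h5, h6, h7, h8⟩ :=
    exists_chart_data he (hUe (subset_closure hp)) hU hp
  have hc := chartPiece_of_chart e crE hU hUc hUe hconv hp
  have hcr : ∀ i x, crE (e x - e p) i = cr i (e x) - cr i (e p) := by
    intro i x
    rw [crE_apply, map_sub]
  refine ⟨_, χ, t, δ, hc, ⟨h1, h2, ?_, ?_, ?_, ?_⟩, h8⟩
  · intro x hx hx0
    have hxp : x = p := by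
      refine hc.inj (subset_closure hx) (subset_closure hp) ?_
      funext i
      show crE (e x - e p) i = crE (e p - e p) i
      rw [hx0 i, sub_self, map_zero]
      rfl
    rw [hxp]
    exact h4
  · intro x hx hi
    exact h5 x hx fun i => by rw [← hcr]; exact hi i
  · intro i x hx hi
    exact h6 i x hx (by rw [← hcr]; exact hi)
  · intro i x hx hi
    exact h7 i x hx (by rw [← hcr]; exact hi)

end Vale.Agent.P267.AS
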